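import Vale.Agent.H76.TwoCyl

/-!
# Two cylinders covering a convex body: the statement inside Euclidean 3-space

Bases and shadows are taken as subsets of the ambient space and measured by the
two-dimensional Euclidean Hausdorff measure.
-/

open MeasureTheory Set Module
open scoped ENNReal

set_option linter.unusedSectionVars false

namespace Vale.Agent.H76

section General

variable {E : Type*} [NormedAddCommGroup E] [InnerProductSpace ℝ E] [FiniteDimensional ℝ E]
  [MeasurableSpace E] [BorelSpace E]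

/-- On a `d`-dimensional subspace, the `d`-dimensional Euclidean Hausdorff measure of the ambient
space restricts to the Lebesgue measure of the subspace. -/
theorem hausdorff_coe_image (H : Submodule ℝ E) {d : ℕ} (hH : finrank ℝ H = d) (S : Set H) :
    μHE[d] (Subtype.val '' S : Set E) = volume S := by
  subst hH
  rw [isometry_subtype_coe.euclideanHausdorffMeasure_image,
    InnerProductSpace.euclideanHausdorffMeasure_eq_volume]

theorem coe_proj (u : E) (hu : ‖u‖ = 1) (x : E) :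
    (((Submodule.span ℝ {u})ᗮ.orthogonalProjectionOnto x : ↥(Submodule.span ℝ {u})ᗮ) : E) =
      x - inner ℝ x u • u := by
  rw [Submodule.orthogonalProjectionOnto_orthogonal]
  simp [Submodule.starProjection_unit_singleton ℝ hu, real_inner_comm]

theorem mem_orth_of_inner (u : E) (x : E) (hx : inner ℝ x u = 0) :
    x ∈ (Submodule.span ℝ {u})ᗮ := by
  rw [Submodule.mem_orthogonal_singleton_iff_inner_left]
  exact hx

/-- A base inside `u^⊥`, viewed inside the subspace, has the same area. -/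
theorem hausdorff_base (hE : finrank ℝ E = 3) (u : E) (hu : ‖u‖ = 1) (B : Set E)
    (hB : ∀ x ∈ B, inner ℝ x u = 0) :
    μHE[2] B = volume (Subtype.val ⁻¹' B : Set ↥(Submodule.span ℝ {u})ᗮ) := by
  have hu0 : u ≠ 0 := by
    rintro rfl
    simp at hu
  have : Fact (finrank ℝ E = 2 + 1) := ⟨hE⟩
  have hH : finrank ℝ ↥(Submodule.span ℝ {u})ᗮ = 2 := Submodule.finrank_orthogonal_span_singleton hu0
  rw [← hausdorff_coe_image _ hH]
  congr 1
  ext x
  constructor
  · intro hx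
    exact ⟨⟨x, mem_orth_of_inner u x (hB x hx)⟩, hx, rfl⟩
  · rintro ⟨y, hy, rfl⟩
    exact hy

/-- The shadow of `K` on `u^⊥`, viewed inside the subspace, has the same area. -/
theorem hausdorff_shadow (hE : finrank ℝ E = 3) (u : E) (hu : ‖u‖ = 1) (K : Set E) :
    μHE[2] ((fun x => x - inner ℝ x u • u) '' K) =
      volume ((Submodule.span ℝ {u})ᗮ.orthogonalProjectionOnto '' K) := by
  have hu0 : u ≠ 0 := by
    rintro rfl
    simp at hu
  have : Fact (finrank ℝ E = 2 + 1) := ⟨hE⟩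
  have hH : finrank ℝ ↥(Submodule.span ℝ {u})ᗮ = 2 := Submodule.finrank_orthogonal_span_singleton hu0
  rw [← hausdorff_coe_image _ hH, image_image]
  congr 1
  apply image_congr
  intro x _
  exact (coe_proj u hu x).symm

/-- A point of the cylinder `B + ℝ u` projects into the base. -/
theorem proj_mem_of_cyl (u : E) (hu : ‖u‖ = 1) (B : Set E)
    (hB : ∀ x ∈ B, inner ℝ x u = 0) (x : E) (hx : ∃ b ∈ B, ∃ t : ℝ, x = b + t • u) :
    (Submodule.span ℝ {u})ᗮ.orthogonalProjectionOnto x ∈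
      (Subtype.val ⁻¹' B : Set ↥(Submodule.span ℝ {u})ᗮ) := by
  obtain ⟨b, hb, t, rfl⟩ := hx
  show (((Submodule.span ℝ {u})ᗮ.orthogonalProjectionOnto (b + t • u) :
    ↥(Submodule.span ℝ {u})ᗮ) : E) ∈ B
  rw [coe_proj u hu]
  have h1 : inner ℝ (b + t • u) u = t := by
    rw [inner_add_left, hB b hb, inner_smul_left, real_inner_self_eq_norm_sq, hu]
    simp
  rw [h1]
  simpa using hb

end General

/-- **Two cylinders.** If a convex body `K` of Euclidean 3-space is covered by two cylinders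
`B₁ + ℝ u₁` and `B₂ + ℝ u₂` with bases `B_i ⊆ u_i^⊥`, then the relative base areas sum to at
least `1/2`, and the base areas sum to at least half the least shadow area of `K`. -/
theorem two_cylinders
    (K : Set (EuclideanSpace ℝ (Fin 3))) (hKconv : Convex ℝ K) (hKcomp : IsCompact K)
    (hKint : (interior K).Nonempty)
    (u₁ u₂ : EuclideanSpace ℝ (Fin 3)) (hu₁ : ‖u₁‖ = 1) (hu₂ : ‖u₂‖ = 1)
    (B₁ B₂ : Set (EuclideanSpace ℝ (Fin 3)))
    (hB₁ : ∀ x ∈ B₁, inner ℝ x u₁ = 0) (hB₂ : ∀ x ∈ B₂, inner ℝ x u₂ = 0)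
    (hcov : K ⊆ {x | ∃ b ∈ B₁, ∃ t : ℝ, x = b + t • u₁} ∪
      {x | ∃ b ∈ B₂, ∃ t : ℝ, x = b + t • u₂}) :
    (1 / 2 : ℝ≥0∞) ≤
        μHE[2] B₁ / μHE[2] ((fun x => x - inner ℝ x u₁ • u₁) '' K) +
        μHE[2] B₂ / μHE[2] ((fun x => x - inner ℝ x u₂ • u₂) '' K) ∧
      ∀ A : ℝ≥0∞, (∀ u : EuclideanSpace ℝ (Fin 3), ‖u‖ = 1 →
          A ≤ μHE[2] ((fun x => x - inner ℝ x u • u) '' K)) →
        A / 2 ≤ μHE[2] B₁ + μHE[2] B₂ := by
  have hE : finrank ℝ (EuclideanSpace ℝ (Fin 3)) = 3 := by simp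
  have hcov' : K ⊆ ((Submodule.span ℝ {u₁})ᗮ.orthogonalProjectionOnto ⁻¹'
        (Subtype.val ⁻¹' B₁ : Set ↥(Submodule.span ℝ {u₁})ᗮ)) ∪
      ((Submodule.span ℝ {u₂})ᗮ.orthogonalProjectionOnto ⁻¹'
        (Subtype.val ⁻¹' B₂ : Set ↥(Submodule.span ℝ {u₂})ᗮ)) := by
    intro x hx
    rcases hcov hx with h | h
    · exact Or.inl (proj_mem_of_cyl u₁ hu₁ B₁ hB₁ x h)
    · exact Or.inr (proj_mem_of_cyl u₂ hu₂ B₂ hB₂ x h)
  have key := two_cylinders_raw K hKconv hKcomp hKint u₁ u₂ hu₁ hu₂ _ _ hcov'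
  rw [← hausdorff_base hE u₁ hu₁ B₁ hB₁, ← hausdorff_base hE u₂ hu₂ B₂ hB₂,
    ← hausdorff_shadow hE u₁ hu₁ K, ← hausdorff_shadow hE u₂ hu₂ K] at key
  refine ⟨key.1, ?_⟩
  intro A hA
  apply key.2 A
  intro u hu
  rw [← hausdorff_shadow hE u hu K]
  exact hA u hu

end Vale.Agent.H76
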