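import Vale.Agent.H76.Core

/-!
# Cylinders in a Euclidean space

Transfer of the cylinder bound to a finite-dimensional inner product space split along a unit
vector `u` as `u^⊥ × ℝ`.
-/

open MeasureTheory Set Module
open scoped Pointwise ENNReal

set_option linter.unusedSectionVars false

namespace Vale.Agent.H76

theorem hasBM2_of_finrank_two {V : Type*} [NormedAddCommGroup V] [InnerProductSpace ℝ V]
    [FiniteDimensional ℝ V] [MeasurableSpace V] [BorelSpace V] (hV : finrank ℝ V = 2) :
    HasBM2 (volume : Measure V) := by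
  let b : OrthonormalBasis (Fin 2) ℝ V := (stdOrthonormalBasis ℝ V).reindex (finCongr hV)
  let e : V ≃L[ℝ] ℝ × ℝ :=
    (b.repr.toContinuousLinearEquiv.trans (EuclideanSpace.equiv (Fin 2) ℝ)).trans
      (ContinuousLinearEquiv.finTwoArrow ℝ ℝ)
  have he : MeasurePreserving e volume volume := by
    have h1 := b.measurePreserving_repr
    have h2 := PiLp.volume_preserving_ofLp (Fin 2)
    have h3 := volume_preserving_finTwoArrow ℝ
    exact h3.comp (h2.comp h1)
  exact HasBM2.of_equiv e he hasBM2_plane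

variable {E : Type*} [NormedAddCommGroup E] [InnerProductSpace ℝ E] [FiniteDimensional ℝ E]
  [MeasurableSpace E] [BorelSpace E]

/-- The splitting of `E` along a unit vector `u` as `u^⊥ × ℝ`. -/
noncomputable def splitEquiv (u : E) (hu : ‖u‖ = 1) :
    E ≃L[ℝ] ↥(Submodule.span ℝ {u})ᗮ × ℝ :=
  ((Submodule.span ℝ {u}).orthogonalDecomposition.toContinuousLinearEquiv.trans
    (WithLp.prodContinuousLinearEquiv 2 ℝ _ _)).trans
  ((ContinuousLinearEquiv.prodComm ℝ _ _).trans
    ((ContinuousLinearEquiv.refl ℝ _).prodCongr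
      (LinearIsometryEquiv.toSpanUnitSingleton u hu).symm.toContinuousLinearEquiv))

theorem splitEquiv_fst (u : E) (hu : ‖u‖ = 1) (x : E) :
    (splitEquiv u hu x).1 = (Submodule.span ℝ {u})ᗮ.orthogonalProjectionOnto x := by
  simp [splitEquiv]

theorem splitEquiv_measurePreserving (u : E) (hu : ‖u‖ = 1) :
    MeasurePreserving (splitEquiv u hu) volume (volume.prod volume) := by
  have h1 := (Submodule.span ℝ {u}).orthogonalDecomposition.measurePreserving
  have h2 := WithLp.volume_preserving_ofLp (↥(Submodule.span ℝ {u})) (↥(Submodule.span ℝ {u})ᗮ)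
  have h3 : MeasurePreserving (Prod.swap : ↥(Submodule.span ℝ {u}) × ↥(Submodule.span ℝ {u})ᗮ → _)
      (volume.prod volume) (volume.prod volume) := Measure.measurePreserving_swap
  have h4 : MeasurePreserving (LinearIsometryEquiv.toSpanUnitSingleton (𝕜 := ℝ) u hu).symm
      volume volume := (LinearIsometryEquiv.toSpanUnitSingleton (𝕜 := ℝ) u hu).symm.measurePreserving
  have h5 : MeasurePreserving
      (Prod.map (id : ↥(Submodule.span ℝ {u})ᗮ → ↥(Submodule.span ℝ {u})ᗮ)
        (LinearIsometryEquiv.toSpanUnitSingleton (𝕜 := ℝ) u hu).symm) (volume.prod volume)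
      (volume.prod volume) := (MeasurePreserving.id volume).prod h4
  exact h5.comp (h3.comp (h2.comp h1))

/-- The part of a convex body of a three-dimensional space inside a cylinder with base `B`. -/
theorem cylinder_bound (hE : finrank ℝ E = 3) (u : E) (hu : ‖u‖ = 1) {K : Set E}
    (hK : IsCompact K) (hKc : Convex ℝ K) {B : Set ↥(Submodule.span ℝ {u})ᗮ}
    (hB : MeasurableSet B) :
    volume (K ∩ (Submodule.span ℝ {u})ᗮ.orthogonalProjectionOnto ⁻¹' B) ≤
      ENNReal.ofReal (phi
        ((volume (B ∩ (Submodule.span ℝ {u})ᗮ.orthogonalProjectionOnto '' K)).toReal /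
          (volume ((Submodule.span ℝ {u})ᗮ.orthogonalProjectionOnto '' K)).toReal)) *
        volume K := by
  have hu0 : u ≠ 0 := by
    rintro rfl
    simp at hu
  have : Fact (finrank ℝ E = 2 + 1) := ⟨hE⟩
  have hH : finrank ℝ ↥(Submodule.span ℝ {u})ᗮ = 2 := Submodule.finrank_orthogonal_span_singleton hu0
  have hBM := hasBM2_of_finrank_two hH
  set Ψ := splitEquiv u hu with hΨ
  set T : Set (↥(Submodule.span ℝ {u})ᗮ × ℝ) := Ψ '' K with hTdef
  have hT : IsCompact T := hK.image Ψ.continuous
  have hTc : Convex ℝ T := hKc.is_linear_image Ψ.isLinear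
  have hfst : Prod.fst '' T = (Submodule.span ℝ {u})ᗮ.orthogonalProjectionOnto '' K := by
    ext y
    constructor
    · rintro ⟨_, ⟨x, hx, rfl⟩, rfl⟩
      exact ⟨x, hx, (splitEquiv_fst u hu x).symm⟩
    · rintro ⟨x, hx, rfl⟩
      exact ⟨Ψ x, ⟨x, hx, rfl⟩, splitEquiv_fst u hu x⟩
  have hmp := splitEquiv_measurePreserving u hu
  have h1 : (volume.prod volume) T = volume K := by
    rw [← hmp.measure_preimage hT.isClosed.measurableSet.nullMeasurableSet,
      Ψ.injective.preimage_image]
  have h2 : (volume.prod volume) (T ∩ B ×ˢ univ) =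
      volume (K ∩ (Submodule.span ℝ {u})ᗮ.orthogonalProjectionOnto ⁻¹' B) := by
    rw [← hmp.measure_preimage
      (hT.isClosed.measurableSet.inter (hB.prod MeasurableSet.univ)).nullMeasurableSet]
    congr 1
    ext x
    constructor
    · rintro ⟨⟨y, hy, hxy⟩, hxB⟩
      have hyx : y = x := Ψ.injective hxy
      subst hyx
      refine ⟨hy, ?_⟩
      have : (Ψ y).1 ∈ B := hxB.1
      rw [splitEquiv_fst] at this
      exact this
    · rintro ⟨hxK, hxB⟩
      refine ⟨⟨x, hxK, rfl⟩, ?_, mem_univ _⟩
      show (Ψ x).1 ∈ B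
      rw [splitEquiv_fst]
      exact hxB
  have h := core volume hBM hT hTc hB
  rw [hfst, h1, h2] at h
  exact h

/-- Covering a convex body of a three-dimensional space by finitely many cylinders: the cone
concentration function of the relative base areas sums to at least one. -/
theorem covering_sum {ι : Type*} [Fintype ι] (hE : finrank ℝ E = 3) {K : Set E}
    (hK : IsCompact K) (hKc : Convex ℝ K) (hKi : (interior K).Nonempty)
    (u : ι → E) (hu : ∀ i, ‖u i‖ = 1) (B : ∀ i, Set ↥(Submodule.span ℝ {u i})ᗮ)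
    (hcov : K ⊆ ⋃ i, (Submodule.span ℝ {u i})ᗮ.orthogonalProjectionOnto ⁻¹' B i) :
    ∃ t : ι → ℝ, (∀ i, 0 ≤ t i) ∧
      (∀ i, ENNReal.ofReal (t i) ≤
        volume (B i) / volume ((Submodule.span ℝ {u i})ᗮ.orthogonalProjectionOnto '' K)) ∧
      1 ≤ ∑ i, ENNReal.ofReal (phi (t i)) := by
  set B' : ∀ i, Set ↥(Submodule.span ℝ {u i})ᗮ := fun i => toMeasurable volume (B i) with hB'
  have hB'm : ∀ i, MeasurableSet (B' i) := fun i => measurableSet_toMeasurable _ _
  have hB'v : ∀ i, volume (B' i) = volume (B i) := fun i => measure_toMeasurable _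
  have hBB' : ∀ i, B i ⊆ B' i := fun i => subset_toMeasurable _ _
  set P : ∀ i, Set ↥(Submodule.span ℝ {u i})ᗮ :=
    fun i => (Submodule.span ℝ {u i})ᗮ.orthogonalProjectionOnto '' K with hP
  have hPc : ∀ i, IsCompact (P i) := fun i =>
    hK.image (Submodule.span ℝ {u i})ᗮ.orthogonalProjectionOnto.continuous
  have hPfin : ∀ i, volume (P i) ≠ ⊤ := fun i => (hPc i).measure_lt_top.ne
  refine ⟨fun i => (volume (B' i ∩ P i)).toReal / (volume (P i)).toReal, ?_, ?_, ?_⟩
  · intro i
    exact div_nonneg ENNReal.toReal_nonneg ENNReal.toReal_nonneg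
  · intro i
    by_cases hP0 : volume (P i) = 0
    · simp [hP0]
    · have hpos : 0 < (volume (P i)).toReal := ENNReal.toReal_pos hP0 (hPfin i)
      have hle : volume (B' i ∩ P i) ≤ volume (P i) := measure_mono inter_subset_right
      have hfin : volume (B' i ∩ P i) ≠ ⊤ := (hle.trans_lt (hPfin i).lt_top).ne
      rw [ENNReal.ofReal_div_of_pos hpos, ENNReal.ofReal_toReal hfin,
        ENNReal.ofReal_toReal (hPfin i)]
      apply ENNReal.div_le_div_right
      rw [← hB'v i]
      exact measure_mono inter_subset_left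
  · have hKpos : 0 < volume K :=
      lt_of_lt_of_le (isOpen_interior.measure_pos volume hKi) (measure_mono interior_subset)
    have hKfin : volume K ≠ ⊤ := hK.measure_lt_top.ne
    have hsub : K ⊆ ⋃ i, K ∩ (Submodule.span ℝ {u i})ᗮ.orthogonalProjectionOnto ⁻¹' B' i := by
      intro x hx
      obtain ⟨i, hi⟩ := mem_iUnion.1 (hcov hx)
      exact mem_iUnion.2 ⟨i, hx, hBB' i hi⟩
    have h1 : volume K ≤ ∑ i, volume
        (K ∩ (Submodule.span ℝ {u i})ᗮ.orthogonalProjectionOnto ⁻¹' B' i) :=
      (measure_mono hsub).trans (measure_iUnion_fintype_le _ _)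
    have h2 : ∑ i, volume (K ∩ (Submodule.span ℝ {u i})ᗮ.orthogonalProjectionOnto ⁻¹' B' i) ≤
        ∑ i, ENNReal.ofReal (phi ((volume (B' i ∩ P i)).toReal / (volume (P i)).toReal)) *
          volume K :=
      Finset.sum_le_sum fun i _ => cylinder_bound hE (u i) (hu i) hK hKc (hB'm i)
    rw [← Finset.sum_mul] at h2
    have h3 := h1.trans h2
    by_contra hcon
    push Not at hcon
    have h4 := ENNReal.mul_lt_mul_left hKpos.ne' hKfin hcon
    rw [one_mul] at h4
    exact absurd h3 (not_le.2 h4)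

end Vale.Agent.H76
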