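import Mathlib

/-!
# A chain of independent pairs `e, e * x`

Help task CHAIN for P199 (owner helper53): from the step statement, build `2 (m + 1)` linearly
independent elements `u 0, u 0 * x, u 2, u 2 * x, …`.
-/

namespace Vale.Agent.H76

theorem snoc2_lt {α : Type*} {n : ℕ} (u : Fin n → α) (a b : α) (i : ℕ) (hi : i < n)
    (hi' : i < n + 1 + 1) :
    (Fin.snoc (Fin.snoc u a : Fin (n + 1) → α) b : Fin (n + 1 + 1) → α) ⟨i, hi'⟩ = u ⟨i, hi⟩ := by
  have h1 : i < n + 1 := Nat.lt_succ_of_lt hi
  simp [Fin.snoc, hi, h1]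

theorem snoc2_mid {α : Type*} {n : ℕ} (u : Fin n → α) (a b : α) (hi' : n < n + 1 + 1) :
    (Fin.snoc (Fin.snoc u a : Fin (n + 1) → α) b : Fin (n + 1 + 1) → α) ⟨n, hi'⟩ = a := by
  simp [Fin.snoc]

theorem snoc2_last {α : Type*} {n : ℕ} (u : Fin n → α) (a b : α) (hi' : n + 1 < n + 1 + 1) :
    (Fin.snoc (Fin.snoc u a : Fin (n + 1) → α) b : Fin (n + 1 + 1) → α) ⟨n + 1, hi'⟩ = b := by
  simp [Fin.snoc]

/-- (CHAIN) -/
theorem exists_chain {K D : Type*} [Field K] [DivisionRing D] [Module K D]
    [IsScalarTower K D D] (x : D)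
    (hstep : ∀ (W : Submodule K D) (n : ℕ) [Module.Finite K W], Module.finrank K W ≤ n →
      (∃ v : Fin (2 * n + 2) → D, LinearIndependent K v) →
      ∃ e : D, ∀ α β : K, α • e + β • (e * x) ∈ W → α = 0 ∧ β = 0)
    (m : ℕ) (hbig : ∃ v : Fin (4 * m + 2) → D, LinearIndependent K v) :
    ∃ u : Fin (2 * (m + 1)) → D, LinearIndependent K u ∧
      ∀ (j : ℕ) (hj : 2 * j + 1 < 2 * (m + 1)),
        u ⟨2 * j + 1, hj⟩ = u ⟨2 * j, by omega⟩ * x := by
  obtain ⟨v, hv⟩ := hbig
  have key : ∀ k : ℕ, k ≤ m + 1 → ∃ u : Fin (2 * k) → D, LinearIndependent K u ∧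
      ∀ (j : ℕ) (hj : 2 * j + 1 < 2 * k), u ⟨2 * j + 1, hj⟩ = u ⟨2 * j, by omega⟩ * x := by
    intro k
    induction k with
    | zero =>
      intro _
      refine ⟨fun i => 0, ?_, ?_⟩
      · have : IsEmpty (Fin (2 * 0)) := by
          simp only [Nat.mul_zero]
          infer_instance
        exact linearIndependent_empty_type
      · intro j hj
        omega
    | succ k ih =>
      intro hk
      obtain ⟨u, hu, hpair⟩ := ih (by omega)
      set W : Submodule K D := Submodule.span K (Set.range u) with hW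
      have hfin : Module.Finite K W := FiniteDimensional.span_of_finite K (Set.finite_range u)
      have hdim : Module.finrank K W ≤ 2 * k := by
        have := finrank_range_le_card (R := K) u
        simpa [Set.finrank] using this
      have hle : 2 * (2 * k) + 2 ≤ 4 * m + 2 := by omega
      have hbig' : ∃ v' : Fin (2 * (2 * k) + 2) → D, LinearIndependent K v' :=
        ⟨v ∘ Fin.castLE hle, hv.comp _ (Fin.castLE_injective hle)⟩
      obtain ⟨e, he⟩ := hstep W (2 * k) hdim hbig'
      have he1 : e ∉ Submodule.span K (Set.range u) := by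
        intro h
        have h' : (1 : K) • e + (0 : K) • (e * x) ∈ W := by simpa using h
        exact one_ne_zero (he 1 0 h').1
      have hu1 : LinearIndependent K (Fin.snoc u e : Fin (2 * k + 1) → D) :=
        linearIndependent_finSnoc.2 ⟨hu, he1⟩
      have he2 : e * x ∉ Submodule.span K (Set.range (Fin.snoc u e : Fin (2 * k + 1) → D)) := by
        intro h
        rw [Fin.range_snoc, Submodule.mem_span_insert] at h
        obtain ⟨a, z, hz, hex⟩ := h
        have h' : (-a) • e + (1 : K) • (e * x) ∈ W := by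
          rw [hex]
          have : (-a) • e + (1 : K) • (a • e + z) = z := by
            rw [one_smul, neg_smul]
            abel
          rw [this]
          exact hz
        exact one_ne_zero (he (-a) 1 h').2
      have hu2 : LinearIndependent K
          (Fin.snoc (Fin.snoc u e : Fin (2 * k + 1) → D) (e * x) : Fin (2 * k + 1 + 1) → D) :=
        linearIndependent_finSnoc.2 ⟨hu1, he2⟩
      refine ⟨(Fin.snoc (Fin.snoc u e : Fin (2 * k + 1) → D) (e * x) : Fin (2 * k + 1 + 1) → D),
        hu2, ?_⟩
      intro j hj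
      by_cases hjk : j < k
      · have h1 : 2 * j + 1 < 2 * k := by omega
        have h2 : 2 * j < 2 * k := by omega
        rw [snoc2_lt u e (e * x) (2 * j + 1) h1, snoc2_lt u e (e * x) (2 * j) h2]
        exact hpair j h1
      · have hjk' : j = k := by omega
        subst hjk'
        rw [snoc2_last u e (e * x), snoc2_mid u e (e * x)]
  obtain ⟨u, hu, hp⟩ := key (m + 1) le_rfl
  exact ⟨u, hu, hp⟩

end Vale.Agent.H76
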