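import Vale.Agent.H76.Lev

/-!
# The Brunn-Minkowski inequality for compact convex sets in the plane

Proved from the one-dimensional case by the layer-cake formula for chord level sets
(normalising both bodies by their longest vertical chord) and the Cauchy-Schwarz inequality.
-/

open MeasureTheory Set
open scoped Pointwise ENNReal

set_option linter.unusedSectionVars false

namespace Vale.Agent.H76

/-- One-dimensional Brunn-Minkowski inequality for compact convex sets. -/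
theorem bm_one {U V W : Set ℝ} (hU : IsCompact U) (hUc : Convex ℝ U) (hUn : U.Nonempty)
    (hV : IsCompact V) (hVc : Convex ℝ V) (hVn : V.Nonempty) {a b : ℝ} (ha : 0 ≤ a) (hb : 0 ≤ b)
    (h : a • U + b • V ⊆ W) :
    ENNReal.ofReal a * volume U + ENNReal.ofReal b * volume V ≤ volume W := by
  obtain ⟨u0, hu0, hu0min⟩ := hU.exists_isLeast hUn
  obtain ⟨u1, hu1, hu1max⟩ := hU.exists_isGreatest hUn
  obtain ⟨v0, hv0, hv0min⟩ := hV.exists_isLeast hVn
  obtain ⟨v1, hv1, hv1max⟩ := hV.exists_isGreatest hVn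
  have hUle : volume U ≤ ENNReal.ofReal (u1 - u0) := by
    calc volume U ≤ volume (Icc u0 u1) := measure_mono (fun w hw => ⟨hu0min hw, hu1max hw⟩)
      _ = ENNReal.ofReal (u1 - u0) := Real.volume_Icc
  have hVle : volume V ≤ ENNReal.ofReal (v1 - v0) := by
    calc volume V ≤ volume (Icc v0 v1) := measure_mono (fun w hw => ⟨hv0min hw, hv1max hw⟩)
      _ = ENNReal.ofReal (v1 - v0) := Real.volume_Icc
  have hconv : Convex ℝ (a • U + b • V) := (hUc.smul a).add (hVc.smul b)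
  have hm0 : a * u0 + b * v0 ∈ a • U + b • V :=
    ⟨a • u0, ⟨u0, hu0, rfl⟩, b • v0, ⟨v0, hv0, rfl⟩, rfl⟩
  have hm1 : a * u1 + b * v1 ∈ a • U + b • V :=
    ⟨a • u1, ⟨u1, hu1, rfl⟩, b • v1, ⟨v1, hv1, rfl⟩, rfl⟩
  have hsub : Icc (a * u0 + b * v0) (a * u1 + b * v1) ⊆ W :=
    (hconv.ordConnected.out hm0 hm1).trans h
  have hu01 : 0 ≤ u1 - u0 := sub_nonneg.2 (hu0min hu1)
  have hv01 : 0 ≤ v1 - v0 := sub_nonneg.2 (hv0min hv1)
  calc ENNReal.ofReal a * volume U + ENNReal.ofReal b * volume V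
      ≤ ENNReal.ofReal a * ENNReal.ofReal (u1 - u0)
        + ENNReal.ofReal b * ENNReal.ofReal (v1 - v0) := by gcongr
    _ = ENNReal.ofReal (a * (u1 - u0) + b * (v1 - v0)) := by
        rw [ENNReal.ofReal_add (mul_nonneg ha hu01) (mul_nonneg hb hv01),
          ENNReal.ofReal_mul ha, ENNReal.ofReal_mul hb]
    _ = ENNReal.ofReal ((a * u1 + b * v1) - (a * u0 + b * v0)) := by ring_nf
    _ = volume (Icc (a * u0 + b * v0) (a * u1 + b * v1)) := Real.volume_Icc.symm
    _ ≤ volume W := measure_mono hsub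

variable {X : Type*} [NormedAddCommGroup X] [NormedSpace ℝ X]

/-- A nonempty compact set has a longest vertical chord. -/
theorem exists_maxChord {T : Set (X × ℝ)} (hT : IsCompact T) (hTn : T.Nonempty) :
    ∃ F : ℝ, 0 ≤ F ∧ ∀ r : ℝ, (Lev T r).Nonempty ↔ r ≤ F := by
  set D : Set ℝ := (fun pq : (X × ℝ) × (X × ℝ) => pq.2.2 - pq.1.2) ''
    ((T ×ˢ T) ∩ {pq : (X × ℝ) × (X × ℝ) | pq.1.1 = pq.2.1}) with hD
  have hDc : IsCompact D := by
    apply IsCompact.image
    · exact (hT.prod hT).inter_right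
        (isClosed_eq (continuous_fst.comp continuous_fst) (continuous_fst.comp continuous_snd))
    · exact (continuous_snd.comp continuous_snd).sub (continuous_snd.comp continuous_fst)
  obtain ⟨p, hp⟩ := hTn
  have h0 : (0 : ℝ) ∈ D := ⟨(p, p), ⟨⟨hp, hp⟩, rfl⟩, by simp⟩
  obtain ⟨F, hF, hFmax⟩ := hDc.exists_isGreatest ⟨0, h0⟩
  refine ⟨F, hFmax h0, ?_⟩
  intro r
  constructor
  · rintro ⟨x, z, z', hz, hz', hr⟩
    exact hr.trans (hFmax ⟨((x, z), (x, z')), ⟨⟨hz, hz'⟩, rfl⟩, rfl⟩)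
  · intro hr
    obtain ⟨⟨⟨x1, z⟩, ⟨x2, z'⟩⟩, ⟨⟨hz, hz'⟩, h12⟩, hd⟩ := hF
    dsimp only at hd hz hz'
    have h12' : x1 = x2 := h12
    subst h12'
    exact ⟨x1, z, z', hz, hz', by rw [hd]; exact hr⟩

theorem lintegral_scale {m : ℝ → ℝ≥0∞} (hm : Measurable m) {c : ℝ} (hc : 0 < c) :
    ENNReal.ofReal c * ∫⁻ ρ in Ioc (0 : ℝ) 1, m (c * ρ) = ∫⁻ r in Ioc (0 : ℝ) c, m r := by
  have h1 : ∫⁻ ρ in Ioc (0 : ℝ) 1, m (c * ρ) = ∫⁻ ρ, (Ioc (0 : ℝ) c).indicator m (c * ρ) := by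
    rw [← lintegral_indicator measurableSet_Ioc]
    congr 1
    ext ρ
    by_cases h : ρ ∈ Ioc (0 : ℝ) 1
    · have h' : c * ρ ∈ Ioc (0 : ℝ) c := ⟨mul_pos hc h.1, by nlinarith [h.2]⟩
      rw [indicator_of_mem h, indicator_of_mem h']
    · have h' : c * ρ ∉ Ioc (0 : ℝ) c := by
        intro hh
        apply h
        constructor
        · exact (mul_pos_iff_of_pos_left hc).1 hh.1
        · exact le_of_mul_le_mul_left (by linarith [hh.2] : c * ρ ≤ c * 1) hc
      rw [indicator_of_notMem h, indicator_of_notMem h']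
  have h2 : ∫⁻ ρ, (Ioc (0 : ℝ) c).indicator m (c * ρ) =
      ∫⁻ y, (Ioc (0 : ℝ) c).indicator m y ∂(Measure.map (c * ·) volume) := by
    rw [lintegral_map (hm.indicator measurableSet_Ioc) (measurable_const_mul c)]
  rw [h1, h2, Real.map_volume_mul_left hc.ne', lintegral_smul_measure,
    lintegral_indicator measurableSet_Ioc, smul_eq_mul, ← mul_assoc,
    abs_of_pos (inv_pos.2 hc), ← ENNReal.ofReal_mul hc.le, mul_inv_cancel₀ hc.ne',
    ENNReal.ofReal_one, one_mul]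

theorem measurable_measure_Lev [MeasurableSpace X] (ν : Measure X) (T : Set (X × ℝ)) :
    Measurable fun r : ℝ => ν (Lev T r) :=
  Antitone.measurable fun _ _ h => measure_mono (Lev_anti T h)

theorem measurable_measure_Lev_mul [MeasurableSpace X] (ν : Measure X) (T : Set (X × ℝ)) (c : ℝ) :
    Measurable fun r : ℝ => ν (Lev T (c * r)) :=
  (measurable_measure_Lev ν T).comp (measurable_const_mul c)

/-- Volume of a compact convex set as the integral of the measures of its chord level sets. -/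
theorem volume_eq_lintegral_Lev [MeasurableSpace X] [BorelSpace X] [SecondCountableTopology X]
    (ν : Measure X) [SigmaFinite ν] {T : Set (X × ℝ)} (hT : IsCompact T) (hTc : Convex ℝ T) :
    (ν.prod volume) T = ∫⁻ r in Ioi (0 : ℝ), ν (Lev T r) := by
  have h := layer_cake ν hT hTc (B := univ) MeasurableSet.univ
  simpa using h

theorem normalized_volume [MeasurableSpace X] [BorelSpace X] [SecondCountableTopology X]
    (ν : Measure X) [SigmaFinite ν] {T : Set (X × ℝ)} (hT : IsCompact T) (hTc : Convex ℝ T)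
    {F : ℝ} (hF0 : 0 ≤ F) (hF : ∀ r : ℝ, (Lev T r).Nonempty ↔ r ≤ F) :
    ENNReal.ofReal F * ∫⁻ ρ in Ioc (0 : ℝ) 1, ν (Lev T (F * ρ)) = (ν.prod volume) T := by
  rw [volume_eq_lintegral_Lev ν hT hTc]
  have hsplit : ∫⁻ r in Ioi (0 : ℝ), ν (Lev T r) = ∫⁻ r in Ioc (0 : ℝ) F, ν (Lev T r) := by
    rw [← lintegral_indicator measurableSet_Ioi, ← lintegral_indicator measurableSet_Ioc]
    congr 1
    ext r
    by_cases h1 : r ∈ Ioc (0 : ℝ) F
    · rw [indicator_of_mem h1, indicator_of_mem (show r ∈ Ioi (0 : ℝ) from h1.1)]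
    · rw [indicator_of_notMem h1]
      by_cases h2 : r ∈ Ioi (0 : ℝ)
      · rw [indicator_of_mem h2]
        have h3 : ¬ r ≤ F := fun h => h1 ⟨h2, h⟩
        have h4 : Lev T r = ∅ := by
          rw [← not_nonempty_iff_eq_empty, hF]
          exact h3
        rw [h4, measure_empty]
      · rw [indicator_of_notMem h2]
  rw [hsplit]
  rcases hF0.eq_or_lt with h0 | hpos
  · rw [← h0]
    simp
  · exact lintegral_scale (measurable_measure_Lev ν T) hpos

theorem normalized_volume_le [MeasurableSpace X] [BorelSpace X] [SecondCountableTopology X]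
    (ν : Measure X) [SigmaFinite ν] {T : Set (X × ℝ)} (hT : IsCompact T) (hTc : Convex ℝ T)
    {c : ℝ} (hc : 0 ≤ c) :
    ENNReal.ofReal c * ∫⁻ ρ in Ioc (0 : ℝ) 1, ν (Lev T (c * ρ)) ≤ (ν.prod volume) T := by
  rw [volume_eq_lintegral_Lev ν hT hTc]
  rcases hc.eq_or_lt with h0 | hpos
  · rw [← h0]
    simp
  · rw [lintegral_scale (measurable_measure_Lev ν T) hpos]
    exact lintegral_mono_set Ioc_subset_Ioi_self

/-- The Brunn-Minkowski inequality for compact convex sets in the plane. -/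
theorem bm_plane {A B S : Set (ℝ × ℝ)} (hA : IsCompact A) (hAc : Convex ℝ A) (hAn : A.Nonempty)
    (hB : IsCompact B) (hBc : Convex ℝ B) (hBn : B.Nonempty) (hS : IsCompact S)
    (hSc : Convex ℝ S) {a b : ℝ} (ha : 0 ≤ a) (hb : 0 ≤ b) (h : a • A + b • B ⊆ S) :
    a * √(volume A).toReal + b * √(volume B).toReal ≤ √(volume S).toReal := by
  obtain ⟨F, hF0, hF⟩ := exists_maxChord hA hAn
  obtain ⟨G, hG0, hG⟩ := exists_maxChord hB hBn
  set c : ℝ := a * F + b * G with hc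
  have hc0 : 0 ≤ c := add_nonneg (mul_nonneg ha hF0) (mul_nonneg hb hG0)
  set IA : ℝ≥0∞ := ∫⁻ ρ in Ioc (0 : ℝ) 1, volume (Lev A (F * ρ)) with hIA
  set IB : ℝ≥0∞ := ∫⁻ ρ in Ioc (0 : ℝ) 1, volume (Lev B (G * ρ)) with hIB
  set IS : ℝ≥0∞ := ∫⁻ ρ in Ioc (0 : ℝ) 1, volume (Lev S (c * ρ)) with hIS
  have hvA : ENNReal.ofReal F * IA = volume A := normalized_volume volume hA hAc hF0 hF
  have hvB : ENNReal.ofReal G * IB = volume B := normalized_volume volume hB hBc hG0 hG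
  have hvS : ENNReal.ofReal c * IS ≤ volume S := normalized_volume_le volume hS hSc hc0
  -- pointwise one-dimensional inequality
  have hpt : ∀ ρ ∈ Ioc (0 : ℝ) 1, ENNReal.ofReal a * volume (Lev A (F * ρ))
      + ENNReal.ofReal b * volume (Lev B (G * ρ)) ≤ volume (Lev S (c * ρ)) := by
    intro ρ hρ
    have hFρ : F * ρ ≤ F := by nlinarith [hρ.1, hρ.2]
    have hGρ : G * ρ ≤ G := by nlinarith [hρ.1, hρ.2]
    have hsub := Lev_add ha hb h (F * ρ) (G * ρ)
    have hceq : a * (F * ρ) + b * (G * ρ) = c * ρ := by rw [hc]; ring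
    rw [hceq] at hsub
    exact bm_one (Lev_isCompact hA _) (Lev_convex hAc _) ((hF _).2 hFρ)
      (Lev_isCompact hB _) (Lev_convex hBc _) ((hG _).2 hGρ) ha hb hsub
  have hint : ENNReal.ofReal a * IA + ENNReal.ofReal b * IB ≤ IS := by
    rw [hIA, hIB, hIS, ← lintegral_const_mul _ (measurable_measure_Lev_mul volume A F),
      ← lintegral_const_mul _ (measurable_measure_Lev_mul volume B G),
      ← lintegral_add_left ((measurable_measure_Lev_mul volume A F).const_mul _)]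
    exact setLIntegral_mono' measurableSet_Ioc hpt
  -- finiteness
  have hIAfin : IA ≠ ⊤ := by
    have : IA ≤ ∫⁻ _ρ in Ioc (0 : ℝ) 1, volume (Lev A 0) := by
      apply setLIntegral_mono' measurableSet_Ioc
      intro ρ hρ
      exact measure_mono (Lev_anti A (mul_nonneg hF0 hρ.1.le))
    refine (this.trans_lt ?_).ne
    rw [setLIntegral_const]
    exact ENNReal.mul_lt_top (Lev_isCompact hA 0).measure_lt_top (by simp)
  have hIBfin : IB ≠ ⊤ := by
    have : IB ≤ ∫⁻ _ρ in Ioc (0 : ℝ) 1, volume (Lev B 0) := by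
      apply setLIntegral_mono' measurableSet_Ioc
      intro ρ hρ
      exact measure_mono (Lev_anti B (mul_nonneg hG0 hρ.1.le))
    refine (this.trans_lt ?_).ne
    rw [setLIntegral_const]
    exact ENNReal.mul_lt_top (Lev_isCompact hB 0).measure_lt_top (by simp)
  have hSfin : volume S ≠ ⊤ := hS.measure_lt_top.ne
  -- pass to real numbers
  set α : ℝ := IA.toReal with hα
  set β : ℝ := IB.toReal with hβ
  have hα0 : 0 ≤ α := ENNReal.toReal_nonneg
  have hβ0 : 0 ≤ β := ENNReal.toReal_nonneg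
  have hA' : (volume A).toReal = F * α := by
    rw [← hvA, ENNReal.toReal_mul, ENNReal.toReal_ofReal hF0]
  have hB' : (volume B).toReal = G * β := by
    rw [← hvB, ENNReal.toReal_mul, ENNReal.toReal_ofReal hG0]
  have hS' : c * (a * α + b * β) ≤ (volume S).toReal := by
    have h1 : ENNReal.ofReal c * (ENNReal.ofReal a * IA + ENNReal.ofReal b * IB) ≤ volume S :=
      (mul_le_mul_right hint _).trans hvS
    have h2 := ENNReal.toReal_mono hSfin h1
    rw [ENNReal.toReal_mul, ENNReal.toReal_add (ENNReal.mul_ne_top ENNReal.ofReal_ne_top hIAfin)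
      (ENNReal.mul_ne_top ENNReal.ofReal_ne_top hIBfin), ENNReal.toReal_mul, ENNReal.toReal_mul,
      ENNReal.toReal_ofReal hc0, ENNReal.toReal_ofReal ha, ENNReal.toReal_ofReal hb] at h2
    exact h2
  rw [hA', hB']
  apply Real.le_sqrt_of_sq_le
  refine le_trans ?_ hS'
  -- Cauchy-Schwarz
  obtain ⟨x, hx0, hx⟩ : ∃ x : ℝ, 0 ≤ x ∧ x ^ 2 = F := ⟨√F, Real.sqrt_nonneg _, Real.sq_sqrt hF0⟩
  obtain ⟨y, hy0, hy⟩ : ∃ y : ℝ, 0 ≤ y ∧ y ^ 2 = α := ⟨√α, Real.sqrt_nonneg _, Real.sq_sqrt hα0⟩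
  obtain ⟨z, hz0, hz⟩ : ∃ z : ℝ, 0 ≤ z ∧ z ^ 2 = G := ⟨√G, Real.sqrt_nonneg _, Real.sq_sqrt hG0⟩
  obtain ⟨w, hw0, hw⟩ : ∃ w : ℝ, 0 ≤ w ∧ w ^ 2 = β := ⟨√β, Real.sqrt_nonneg _, Real.sq_sqrt hβ0⟩
  have e1 : √(F * α) = x * y := by
    rw [← hx, ← hy, ← mul_pow, Real.sqrt_sq (mul_nonneg hx0 hy0)]
  have e2 : √(G * β) = z * w := by
    rw [← hz, ← hw, ← mul_pow, Real.sqrt_sq (mul_nonneg hz0 hw0)]
  rw [e1, e2, hc, ← hx, ← hy, ← hz, ← hw]
  nlinarith [mul_nonneg (mul_nonneg ha hb) (sq_nonneg (x * w - z * y))]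

end Vale.Agent.H76
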