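import Mathlib

/-!
# Comparison of a concave profile with a cone profile

A one-variable lemma: if `g ≥ 0` is antitone, concave on `[0, F]` and vanishes beyond `F`,
then for `0 ≤ β ≤ g 0` there is a level `s` at which the truncated layer integral of `g ^ 2`
is controlled by the full layer integral, with the constant attained by cones.
-/

open MeasureTheory Set
open scoped ENNReal

namespace Vale.Agent.H76

theorem cone_pointwise (g : ℝ → ℝ) (F : ℝ) (hF : 0 < F)
    (hzero : ∀ r, F < r → g r = 0) (hg0 : ∀ r, 0 ≤ g r)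
    (hconc : ∀ r0 r1, 0 ≤ r0 → r0 ≤ F → 0 ≤ r1 → r1 ≤ F → ∀ a b, 0 ≤ a → 0 ≤ b → a + b = 1 →
      a * g r0 + b * g r1 ≤ g (a * r0 + b * r1))
    (β : ℝ) (hβ0 : 0 ≤ β) (hβ : β < g 0) :
    ∃ s, 0 < s ∧ (∀ r, 0 < r → r < s → g 0 - (g 0 - β) * r / s ≤ g r) ∧
      (∀ r, s < r → g r ≤ max 0 (g 0 - (g 0 - β) * r / s)) := by
  set G := g 0 with hGdef
  have hGpos : 0 < G := lt_of_le_of_lt hβ0 hβ
  have hGβ : 0 < G - β := sub_pos.2 hβ
  -- chord inequality from the left endpoint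
  have hchord : ∀ r r', 0 < r → r ≤ r' → r' ≤ F → G - (G - g r') * r / r' ≤ g r := by
    intro r r' hr hrr' hr'F
    have hr'pos : 0 < r' := lt_of_lt_of_le hr hrr'
    have h := hconc 0 r' le_rfl hF.le hr'pos.le hr'F (1 - r / r') (r / r')
      (sub_nonneg.2 ((div_le_one hr'pos).2 hrr')) (div_nonneg hr.le hr'pos.le) (by ring)
    have e1 : (1 - r / r') * 0 + r / r' * r' = r := by field_simp; ring
    rw [e1] at h
    have e2 : (1 - r / r') * g 0 + r / r' * g r' = G - (G - g r') * r / r' := by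
      rw [← hGdef]; field_simp; ring
    rw [e2] at h
    exact h
  set A : Set ℝ := {r | 0 ≤ r ∧ r ≤ F ∧ β ≤ g r} with hA
  have hA0 : (0 : ℝ) ∈ A := ⟨le_rfl, hF.le, hβ.le⟩
  have hAbdd : BddAbove A := ⟨F, fun r hr => hr.2.1⟩
  set s := sSup A with hs
  have hsF : s ≤ F := csSup_le ⟨0, hA0⟩ (fun r hr => hr.2.1)
  -- an explicit positive element of A
  have hr1 : (1 - β / G) * F ∈ A := by
    have h1 : 0 < 1 - β / G := sub_pos.2 ((div_lt_one hGpos).2 hβ)
    have h2 : 1 - β / G ≤ 1 := sub_le_self _ (div_nonneg hβ0 hGpos.le)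
    refine ⟨(mul_pos h1 hF).le, by nlinarith, ?_⟩
    have h3 := hchord ((1 - β / G) * F) F (mul_pos h1 hF) (by nlinarith) le_rfl
    have e : G - (G - g F) * ((1 - β / G) * F) / F = β + g F * (1 - β / G) := by
      field_simp; ring
    rw [e] at h3
    nlinarith [mul_nonneg (hg0 F) h1.le]
  have hspos : 0 < s := by
    have h1 : 0 < 1 - β / G := sub_pos.2 ((div_lt_one hGpos).2 hβ)
    exact lt_of_lt_of_le (mul_pos h1 hF) (le_csSup hAbdd hr1)
  refine ⟨s, hspos, ?_, ?_⟩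
  · intro r hr hrs
    by_contra hcon
    push Not at hcon
    set Δ := G - g r with hΔ
    have hΔ1 : (G - β) * r / s < Δ := by rw [hΔ]; linarith
    have hΔpos : 0 < Δ := lt_of_le_of_lt (by positivity) hΔ1
    have hr'' : (G - β) * r / Δ < s := by
      rw [div_lt_iff₀ hΔpos]
      rw [div_lt_iff₀ hspos] at hΔ1
      linarith
    obtain ⟨r', hr'A, hr'⟩ := exists_lt_of_lt_csSup ⟨0, hA0⟩ (max_lt hrs hr'')
    have hrr' : r < r' := lt_of_le_of_lt (le_max_left _ _) hr'
    have hr''r' : (G - β) * r / Δ < r' := lt_of_le_of_lt (le_max_right _ _) hr'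
    have hr'pos : 0 < r' := lt_trans hr hrr'
    have h1 := hchord r r' hr hrr'.le hr'A.2.1
    have h2 : (G - g r') * r / r' ≤ (G - β) * r / r' := by
      apply div_le_div_of_nonneg_right _ hr'pos.le
      apply mul_le_mul_of_nonneg_right _ hr.le
      linarith [hr'A.2.2]
    have h3 : (G - β) * r / r' < Δ := by
      rw [div_lt_iff₀ hr'pos]
      rw [div_lt_iff₀ hΔpos] at hr''r'
      linarith
    rw [hΔ] at h3
    linarith
  · intro r hsr
    by_cases hrF : F < r
    · rw [hzero r hrF]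
      exact le_max_left _ _
    · push Not at hrF
      refine le_trans ?_ (le_max_right _ _)
      have hrpos : 0 < r := lt_trans hspos hsr
      have hrA : r ∉ A := fun h => absurd (le_csSup hAbdd h) (not_le.2 hsr)
      have hgr : g r < β := by
        by_contra hcon
        push Not at hcon
        exact hrA ⟨hrpos.le, hrF, hcon⟩
      by_contra hcon
      push Not at hcon
      set Δ := G - g r with hΔ
      have hΔ0 : G - β < Δ := by rw [hΔ]; linarith
      have hΔpos : 0 < Δ := lt_trans hGβ hΔ0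
      have hΔ1 : Δ < (G - β) * r / s := by rw [hΔ]; linarith
      have hr''1 : s < (G - β) * r / Δ := by
        rw [lt_div_iff₀ hΔpos]
        rw [lt_div_iff₀ hspos] at hΔ1
        linarith
      have hr''2 : (G - β) * r / Δ < r := by
        rw [div_lt_iff₀ hΔpos]
        nlinarith
      set r2 := (s + (G - β) * r / Δ) / 2 with hr2
      have hr2s : s < r2 := by rw [hr2]; linarith
      have hr2r'' : r2 < (G - β) * r / Δ := by rw [hr2]; linarith
      have hr2pos : 0 < r2 := lt_trans hspos hr2s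
      have hr2r : r2 ≤ r := (lt_trans hr2r'' hr''2).le
      have hr2A : r2 ∉ A := fun h => absurd (le_csSup hAbdd h) (not_le.2 hr2s)
      have hgr2 : g r2 < β := by
        by_contra hcon2
        push Not at hcon2
        exact hr2A ⟨hr2pos.le, hr2r.trans hrF, hcon2⟩
      have h1 := hchord r2 r hr2pos hr2r hrF
      have h2 : G - β < Δ * r2 / r := by
        have : G - (G - g r) * r2 / r < β := lt_of_le_of_lt h1 hgr2
        rw [hΔ]; linarith
      have h3 : (G - β) * r / Δ < r2 := by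
        rw [div_lt_iff₀ hΔpos]
        rw [lt_div_iff₀ hrpos] at h2
        linarith
      linarith

theorem lintegral_ofReal_Ioc {f : ℝ → ℝ} (hf : Continuous f) {a b : ℝ} (hab : a ≤ b)
    (hnn : ∀ x, 0 ≤ f x) :
    ∫⁻ r in Ioc a b, ENNReal.ofReal (f r) = ENNReal.ofReal (∫ r in a..b, f r) := by
  rw [intervalIntegral.integral_of_le hab, ofReal_integral_eq_lintegral_ofReal]
  · exact (hf.intervalIntegrable a b).1
  · exact Filter.Eventually.of_forall hnn

theorem integral_cone_sq {G β s : ℝ} (a b : ℝ) (hs : 0 < s) (hβ : β < G) :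
    ∫ r in a..b, (G - (G - β) * r / s) ^ 2 =
      s * ((G - (G - β) * a / s) ^ 3 - (G - (G - β) * b / s) ^ 3) / (3 * (G - β)) := by
  have hGβ : G - β ≠ 0 := (sub_pos.2 hβ).ne'
  have hderiv : ∀ x ∈ uIcc a b,
      HasDerivAt (fun r => -s / (3 * (G - β)) * (G - (G - β) * r / s) ^ 3)
        ((G - (G - β) * x / s) ^ 2) x := by
    intro x _
    have h1 : HasDerivAt (fun r : ℝ => G - (G - β) * r / s) (-((G - β) * 1 / s)) x :=
      (((hasDerivAt_id x).const_mul (G - β)).div_const s).const_sub G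
    have h3 := (h1.pow 3).const_mul (-s / (3 * (G - β)))
    have h4 : HasDerivAt (fun r => -s / (3 * (G - β)) * (G - (G - β) * r / s) ^ 3)
        (-s / (3 * (G - β)) * (((3 : ℕ) : ℝ) * (G - (G - β) * x / s) ^ (3 - 1) *
          -((G - β) * 1 / s))) x := h3
    refine h4.congr_deriv ?_
    norm_num
    field_simp
  rw [intervalIntegral.integral_eq_sub_of_hasDerivAt hderiv]
  · field_simp
    ring
  · exact Continuous.intervalIntegrable (by fun_prop) a b

theorem cone_lemma (g : ℝ → ℝ) (F : ℝ) (hF : 0 ≤ F)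
    (hzero : ∀ r, F < r → g r = 0) (hg0 : ∀ r, 0 ≤ g r)
    (hconc : ∀ r0 r1, 0 ≤ r0 → r0 ≤ F → 0 ≤ r1 → r1 ≤ F → ∀ a b, 0 ≤ a → 0 ≤ b → a + b = 1 →
      a * g r0 + b * g r1 ≤ g (a * r0 + b * r1))
    (β : ℝ) (hβ0 : 0 ≤ β) (hβ : β ≤ g 0) (hG : 0 < g 0) :
    ∃ s, 0 ≤ s ∧ ENNReal.ofReal (s * β ^ 2) + ∫⁻ r in Ioi s, ENNReal.ofReal (g r ^ 2) ≤
      ENNReal.ofReal (β ^ 2 * (3 * g 0 - 2 * β) / g 0 ^ 3) *
        ∫⁻ r in Ioi (0 : ℝ), ENNReal.ofReal (g r ^ 2) := by
  rcases hβ.eq_or_lt with hβeq | hβlt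
  · refine ⟨0, le_rfl, ?_⟩
    have : β ^ 2 * (3 * g 0 - 2 * β) / g 0 ^ 3 = 1 := by
      rw [hβeq]
      field_simp
      ring
    rw [this]
    simp
  rcases hF.eq_or_lt with hF0 | hFpos
  · refine ⟨0, le_rfl, ?_⟩
    have h0 : ∫⁻ r in Ioi (0 : ℝ), ENNReal.ofReal (g r ^ 2) = 0 := by
      rw [← lintegral_zero (μ := volume.restrict (Ioi (0 : ℝ)))]
      apply setLIntegral_congr_fun measurableSet_Ioi
      intro r hr
      have : g r = 0 := hzero r (by rw [← hF0]; exact hr)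
      simp [this]
    rw [h0]
    simp
  obtain ⟨s, hspos, hlow, hup⟩ := cone_pointwise g F hFpos hzero hg0 hconc β hβ0 hβlt
  refine ⟨s, hspos.le, ?_⟩
  set G := g 0 with hGdef
  have hGβ : 0 < G - β := sub_pos.2 hβlt
  set ℓ : ℝ → ℝ := fun r => G - (G - β) * r / s with hℓ
  have hℓcont : Continuous fun r => ℓ r ^ 2 := by rw [hℓ]; fun_prop
  set M := s * G / (G - β) with hM
  have hsM : s ≤ M := by
    rw [hM, le_div_iff₀ hGβ]
    nlinarith
  have hℓM : ∀ r, M < r → ℓ r < 0 := by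
    intro r hr
    rw [hM, div_lt_iff₀ hGβ] at hr
    simp only [hℓ]
    rw [sub_neg, lt_div_iff₀ hspos]
    linarith
  have hℓnn : ∀ r, r ≤ M → 0 ≤ ℓ r := by
    intro r hr
    rw [hM, le_div_iff₀ hGβ] at hr
    simp only [hℓ]
    rw [sub_nonneg, div_le_iff₀ hspos]
    linarith
  set τ := s * β ^ 3 / (3 * (G - β)) with hτ
  set d₀ := s * (G ^ 3 - β ^ 3) / (3 * (G - β)) with hd₀
  -- upper bound for the tail
  have hT : ∫⁻ r in Ioi s, ENNReal.ofReal (g r ^ 2) ≤ ENNReal.ofReal τ := by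
    have h1 : ∫⁻ r in Ioi s, ENNReal.ofReal (g r ^ 2) ≤
        ∫⁻ r in Ioi s, (Ioc s M).indicator (fun r => ENNReal.ofReal (ℓ r ^ 2)) r := by
      apply setLIntegral_mono' measurableSet_Ioi
      intro r hr
      have hgr := hup r hr
      by_cases hrM : r ≤ M
      · rw [indicator_of_mem (show r ∈ Ioc s M from ⟨hr, hrM⟩)]
        apply ENNReal.ofReal_le_ofReal
        have h2 : g r ≤ ℓ r := by
          rw [max_eq_right (hℓnn r hrM)] at hgr
          exact hgr
        exact pow_le_pow_left₀ (hg0 r) h2 2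
      · push Not at hrM
        rw [indicator_of_notMem (show r ∉ Ioc s M from fun h => absurd h.2 (not_le.2 hrM))]
        rw [max_eq_left (hℓM r hrM).le] at hgr
        have : g r = 0 := le_antisymm hgr (hg0 r)
        simp [this]
    have h2 : ∫⁻ r in Ioi s, (Ioc s M).indicator (fun r => ENNReal.ofReal (ℓ r ^ 2)) r ≤
        ∫⁻ r in Ioc s M, ENNReal.ofReal (ℓ r ^ 2) := by
      rw [← lintegral_indicator measurableSet_Ioc]
      exact setLIntegral_le_lintegral _ _
    have h3 : ∫⁻ r in Ioc s M, ENNReal.ofReal (ℓ r ^ 2) = ENNReal.ofReal τ := by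
      rw [lintegral_ofReal_Ioc hℓcont hsM (fun x => sq_nonneg _)]
      congr 1
      simp only [hℓ]
      rw [integral_cone_sq s M hspos hβlt, hτ, hM]
      field_simp
      ring
    exact (h1.trans h2).trans h3.le
  -- lower bound for the initial part
  have hD : ENNReal.ofReal d₀ ≤ ∫⁻ r in Ioc (0 : ℝ) s, ENNReal.ofReal (g r ^ 2) := by
    have h1 : ∫⁻ r in Ioo (0 : ℝ) s, ENNReal.ofReal (ℓ r ^ 2) ≤
        ∫⁻ r in Ioo (0 : ℝ) s, ENNReal.ofReal (g r ^ 2) := by
      apply setLIntegral_mono' measurableSet_Ioo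
      intro r hr
      apply ENNReal.ofReal_le_ofReal
      have h2 : ℓ r ≤ g r := hlow r hr.1 hr.2
      have h3 : 0 ≤ ℓ r := hℓnn r (hr.2.le.trans hsM)
      exact pow_le_pow_left₀ h3 h2 2
    have h2 : ∫⁻ r in Ioo (0 : ℝ) s, ENNReal.ofReal (g r ^ 2) ≤
        ∫⁻ r in Ioc (0 : ℝ) s, ENNReal.ofReal (g r ^ 2) :=
      lintegral_mono_set Ioo_subset_Ioc_self
    have h3 : ∫⁻ r in Ioo (0 : ℝ) s, ENNReal.ofReal (ℓ r ^ 2) = ENNReal.ofReal d₀ := by
      rw [setLIntegral_congr Ioo_ae_eq_Ioc, lintegral_ofReal_Ioc hℓcont hspos.le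
        (fun x => sq_nonneg _)]
      congr 1
      simp only [hℓ]
      rw [integral_cone_sq 0 s hspos hβlt, hd₀]
      field_simp
      ring
    rw [← h3]
    exact h1.trans h2
  -- splitting the total
  have hsplit : ∫⁻ r in Ioi (0 : ℝ), ENNReal.ofReal (g r ^ 2) =
      (∫⁻ r in Ioc (0 : ℝ) s, ENNReal.ofReal (g r ^ 2)) +
        ∫⁻ r in Ioi s, ENNReal.ofReal (g r ^ 2) := by
    have hdisj : Disjoint (Ioc (0 : ℝ) s) (Ioi s) := by
      rw [Set.disjoint_left]
      intro r hr1 hr2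
      exact absurd hr1.2 (not_le.2 hr2)
    have h := lintegral_union (μ := (volume : Measure ℝ))
      (f := fun r => ENNReal.ofReal (g r ^ 2)) (A := Ioc (0 : ℝ) s) (B := Ioi s)
      measurableSet_Ioi hdisj
    rw [Ioc_union_Ioi_eq_Ioi hspos.le] at h
    exact h
  rw [hsplit]
  set T := ∫⁻ r in Ioi s, ENNReal.ofReal (g r ^ 2) with hTdef
  have hTfin : T ≠ ⊤ := (hT.trans_lt ENNReal.ofReal_lt_top).ne
  set T' := T.toReal with hT'
  have hTeq : T = ENNReal.ofReal T' := (ENNReal.ofReal_toReal hTfin).symm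
  have hT'0 : 0 ≤ T' := ENNReal.toReal_nonneg
  have hτ0 : 0 ≤ τ := by rw [hτ]; positivity
  have hT'τ : T' ≤ τ := by
    rw [hT']
    exact ENNReal.toReal_le_of_le_ofReal hτ0 hT
  set Φ := β ^ 2 * (3 * G - 2 * β) / G ^ 3 with hΦ
  have hG3 : 0 < G ^ 3 := by positivity
  have hΦ0 : 0 ≤ Φ := by
    rw [hΦ]
    apply div_nonneg _ hG3.le
    apply mul_nonneg (sq_nonneg _)
    linarith
  have hΦ1 : Φ ≤ 1 := by
    rw [hΦ, div_le_one hG3]
    nlinarith [mul_nonneg (sq_nonneg (G - β)) (by linarith : (0 : ℝ) ≤ G + 2 * β)]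
  have hd₀0 : 0 ≤ d₀ := by
    rw [hd₀]
    apply div_nonneg _ (by linarith)
    apply mul_nonneg hspos.le
    have : β ^ 3 ≤ G ^ 3 := pow_le_pow_left₀ hβ0 hβlt.le 3
    linarith
  have hid : Φ * (d₀ + τ) = s * β ^ 2 + τ := by
    rw [hΦ, hd₀, hτ]
    field_simp
    ring
  have hreal : s * β ^ 2 + T' ≤ Φ * (d₀ + T') := by
    nlinarith [mul_nonneg (sub_nonneg.2 hΦ1) (sub_nonneg.2 hT'τ)]
  calc ENNReal.ofReal (s * β ^ 2) + T
      = ENNReal.ofReal (s * β ^ 2 + T') := by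
        rw [hTeq, ENNReal.ofReal_add (by positivity) hT'0]
    _ ≤ ENNReal.ofReal (Φ * (d₀ + T')) := ENNReal.ofReal_le_ofReal hreal
    _ = ENNReal.ofReal Φ * (ENNReal.ofReal d₀ + T) := by
        rw [hTeq, ENNReal.ofReal_mul hΦ0, ENNReal.ofReal_add hd₀0 hT'0]
    _ ≤ ENNReal.ofReal Φ * ((∫⁻ r in Ioc (0 : ℝ) s, ENNReal.ofReal (g r ^ 2)) + T) :=
        mul_le_mul' le_rfl (add_le_add hD le_rfl)

end Vale.Agent.H76
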