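import Mathlib

/-!
# Orthonormal coordinates on a plane

Two dimensional Euclidean Hausdorff measure of a subset of the plane spanned by an orthonormal
pair `a, b`, computed as the Lebesgue measure of its image under `x ↦ (⟪x, a⟫, ⟪x, b⟫)`.
-/

open MeasureTheory Set
open scoped ENNReal

namespace Vale.Agent.H76

section Coord

variable {E : Type*} [NormedAddCommGroup E] [InnerProductSpace ℝ E]

/-- Euclidean plane to product coordinates. -/
noncomputable def planeEquiv : EuclideanSpace ℝ (Fin 2) ≃ᵐ ℝ × ℝ :=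
  (MeasurableEquiv.toLp 2 (Fin 2 → ℝ)).symm.trans MeasurableEquiv.finTwoArrow

theorem planeEquiv_apply (y : EuclideanSpace ℝ (Fin 2)) : planeEquiv y = (y 0, y 1) := rfl

theorem planeEquiv_mp : MeasurePreserving planeEquiv volume volume :=
  (EuclideanSpace.volume_preserving_symm_measurableEquiv_toLp (Fin 2)).trans
    (volume_preserving_finTwoArrow ℝ)

theorem frame_isometry (a b : E) (ha : ‖a‖ = 1) (hb : ‖b‖ = 1) (hab : inner ℝ a b = 0) :
    Isometry (fun y : EuclideanSpace ℝ (Fin 2) => y 0 • a + y 1 • b) := by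
  apply Isometry.of_dist_eq
  intro y y'
  rw [dist_eq_norm, EuclideanSpace.dist_eq]
  have h1 : y 0 • a + y 1 • b - (y' 0 • a + y' 1 • b) = (y 0 - y' 0) • a + (y 1 - y' 1) • b := by
    module
  rw [h1]
  have h2 : ‖(y 0 - y' 0) • a + (y 1 - y' 1) • b‖ ^ 2 = (y 0 - y' 0) ^ 2 + (y 1 - y' 1) ^ 2 := by
    rw [norm_add_sq_real, norm_smul, norm_smul, ha, hb, inner_smul_left, inner_smul_right, hab]
    simp [sq_abs]
  rw [Fin.sum_univ_two, Real.dist_eq, Real.dist_eq, sq_abs, sq_abs, ← h2,
    Real.sqrt_sq (norm_nonneg _)]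

/-- Area in orthonormal coordinates. -/
theorem hausdorff_coord [MeasurableSpace E] [BorelSpace E] (a b : E) (ha : ‖a‖ = 1) (hb : ‖b‖ = 1) (hab : inner ℝ a b = 0)
    (X : Set E) (hX : ∀ x ∈ X, x = inner ℝ x a • a + inner ℝ x b • b) :
    μHE[2] X = volume ((fun x : E => ((inner ℝ x a, inner ℝ x b) : ℝ × ℝ)) '' X) := by
  set ψ : EuclideanSpace ℝ (Fin 2) → E := fun y => y 0 • a + y 1 • b with hψ
  have hiso : Isometry ψ := frame_isometry a b ha hb hab
  have hba : inner ℝ b a = 0 := by rw [real_inner_comm]; exact hab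
  have hq : ∀ y, ((inner ℝ (ψ y) a, inner ℝ (ψ y) b) : ℝ × ℝ) = planeEquiv y := by
    intro y
    rw [planeEquiv_apply]
    simp [hψ, inner_add_left, inner_smul_left, hab, hba, ha, hb]
  have hXeq : X = ψ '' (ψ ⁻¹' X) := by
    ext x
    constructor
    · intro hx
      refine ⟨!₂[inner ℝ x a, inner ℝ x b], ?_, ?_⟩
      · show ψ _ ∈ X
        have : ψ !₂[inner ℝ x a, inner ℝ x b] = x := by
          rw [hψ]
          simpa using (hX x hx).symm
        rw [this]
        exact hx
      · rw [hψ]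
        simpa using (hX x hx).symm
    · rintro ⟨y, hy, rfl⟩
      exact hy
  have himg : (fun x : E => ((inner ℝ x a, inner ℝ x b) : ℝ × ℝ)) '' X
      = planeEquiv.symm ⁻¹' (ψ ⁻¹' X) := by
    rw [← MeasurableEquiv.image_eq_preimage_symm]
    conv_lhs => rw [hXeq]
    rw [image_image]
    apply image_congr
    intro y _
    exact hq y
  rw [himg, planeEquiv_mp.symm.measure_preimage_equiv]
  conv_lhs => rw [hXeq]
  rw [hiso.euclideanHausdorffMeasure_image, EuclideanSpace.euclideanHausdorffMeasure_eq_volume]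

end Coord

end Vale.Agent.H76
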