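import Vale.Agent.H76.Plank

/-!
# Chords from widths, and generalized planks

* `chord_of_width`: a compact convex set lying in a plane orthogonal to `n`, all of whose widths
  in directions orthogonal to `n` are at least `w`, has a chord `w • ν` in every unit direction
  `ν` orthogonal to `n`.
* `gen_plank`: the plank theorem for generalized planks `{z | ⟪z, ν i⟫ ∈ Eset i}` with arbitrary
  sets `Eset i ⊆ ℝ`, the widths being replaced by Lebesgue (outer) measures.
-/

open MeasureTheory Set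
open scoped ENNReal

namespace Vale.Agent.H76

section Chord

variable {E : Type*} [NormedAddCommGroup E] [InnerProductSpace ℝ E] [CompleteSpace E]

theorem chord_of_width {S : Set E} (hS : Convex ℝ S) (hSc : IsCompact S) (hne : S.Nonempty)
    (n : E) (hn : ‖n‖ = 1) (hplane : ∀ x ∈ S, ∀ y ∈ S, inner ℝ (x - y) n = 0)
    {w : ℝ} (hw : 0 ≤ w)
    (hwidth : ∀ ν' : E, ‖ν'‖ = 1 → inner ℝ ν' n = 0 →
      ∃ x ∈ S, ∃ y ∈ S, w ≤ inner ℝ (x - y) ν')
    (ν : E) (hν : ‖ν‖ = 1) (hνn : inner ℝ ν n = 0) :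
    ∃ x ∈ S, ∃ y ∈ S, x - y = w • ν := by
  set D : Set E := (fun p : E × E => p.1 - p.2) '' (S ×ˢ S) with hD
  have hDc : IsCompact D := (hSc.prod hSc).image (continuous_fst.sub continuous_snd)
  have hDconv : Convex ℝ D := by
    have h1 : Convex ℝ (S ×ˢ S) := hS.prod hS
    have h2 : IsLinearMap ℝ (fun p : E × E => p.1 - p.2) :=
      ⟨fun a b => by simp only [Prod.fst_add, Prod.snd_add]; abel,
        fun c a => by simp only [Prod.smul_fst, Prod.smul_snd, smul_sub]⟩
    exact h1.is_linear_image h2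
  by_contra hcon
  have hnot : w • ν ∉ D := by
    rintro ⟨⟨x, y⟩, ⟨hx, hy⟩, hxy⟩
    exact hcon ⟨x, hx, y, hy, hxy⟩
  obtain ⟨f, u, hf1, hf2⟩ := geometric_hahn_banach_closed_point hDconv hDc.isClosed hnot
  set ξ : E := (InnerProductSpace.toDual ℝ E).symm f with hξ
  have hfξ : ∀ z, f z = inner ℝ ξ z := fun z => (InnerProductSpace.toDual_symm_apply).symm
  set ξ' : E := ξ - inner ℝ ξ n • n with hξ'
  have hnn : inner ℝ n n = (1 : ℝ) := by rw [real_inner_self_eq_norm_sq, hn]; norm_num
  have hξ'n : inner ℝ ξ' n = 0 := by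
    rw [hξ', inner_sub_left, inner_smul_left, hnn]
    simp
  have hf' : ∀ z, inner ℝ z n = 0 → f z = inner ℝ ξ' z := by
    intro z hz
    rw [hfξ, hξ', inner_sub_left, inner_smul_left, real_inner_comm z n, hz]
    simp
  obtain ⟨x0, hx0⟩ := hne
  have h0D : (0 : E) ∈ D := ⟨(x0, x0), ⟨hx0, hx0⟩, by simp⟩
  have hu0 : 0 < u := by
    have := hf1 0 h0D
    simpa using this
  have hfν : f (w • ν) = w * inner ℝ ξ' ν := by
    rw [hf' (w • ν) (by rw [inner_smul_left, hνn]; simp), inner_smul_right]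
  by_cases hz : ξ' = 0
  · rw [hfν, hz] at hf2
    simp at hf2
    linarith
  · have hpos : 0 < ‖ξ'‖ := norm_pos_iff.2 hz
    set ν' : E := (1 / ‖ξ'‖) • ξ' with hν'
    have hν'1 : ‖ν'‖ = 1 := by
      rw [hν', norm_smul, Real.norm_eq_abs, abs_of_pos (by positivity)]
      field_simp
    have hν'n : inner ℝ ν' n = 0 := by
      rw [hν', inner_smul_left, hξ'n]
      simp
    obtain ⟨x, hx, y, hy, hxy⟩ := hwidth ν' hν'1 hν'n
    have hξν' : ξ' = ‖ξ'‖ • ν' := by
      rw [hν', smul_smul]
      field_simp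
      simp
    have h1 : f (x - y) = ‖ξ'‖ * inner ℝ (x - y) ν' := by
      rw [hf' (x - y) (hplane x hx y hy)]
      conv_lhs => rw [hξν']
      rw [inner_smul_left, real_inner_comm]
      simp
    have h2 : f (w • ν) ≤ ‖ξ'‖ * w := by
      rw [hfν]
      conv_lhs => rw [hξν']
      rw [inner_smul_left]
      have h3 : inner ℝ ν' ν ≤ 1 := by
        have := real_inner_le_norm ν' ν
        rw [hν'1, hν] at this
        linarith
      have h4 : w * (‖ξ'‖ * inner ℝ ν' ν) ≤ w * (‖ξ'‖ * 1) :=
        mul_le_mul_of_nonneg_left (mul_le_mul_of_nonneg_left h3 hpos.le) hw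
      simp only [conj_trivial]
      linarith
    have h5 : f (x - y) < u := hf1 _ ⟨(x, y), ⟨hx, hy⟩, rfl⟩
    have h6 : ‖ξ'‖ * w ≤ ‖ξ'‖ * inner ℝ (x - y) ν' := mul_le_mul_of_nonneg_left hxy hpos.le
    linarith

end Chord

section GenPlank

variable {V : Type*} [NormedAddCommGroup V] [InnerProductSpace ℝ V]
variable {ι : Type*} [Fintype ι]

theorem volume_Ico_grid_disjoint {η : ℝ} (hη : 0 < η) :
    Pairwise (Function.onFun Disjoint fun k : ℤ => Ico (k * η) ((k + 1) * η)) := by
  intro k k' hkk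
  rw [Function.onFun, Set.disjoint_left]
  rintro t ⟨h1, h2⟩ ⟨h3, h4⟩
  apply hkk
  have e1 : (k : ℝ) < k' + 1 := by
    by_contra hc
    push Not at hc
    have := mul_le_mul_of_nonneg_right hc hη.le
    linarith
  have e2 : (k' : ℝ) < k + 1 := by
    by_contra hc
    push Not at hc
    have := mul_le_mul_of_nonneg_right hc hη.le
    linarith
  have e1' : k < k' + 1 := by exact_mod_cast e1
  have e2' : k' < k + 1 := by exact_mod_cast e2
  omega

/-- The plank theorem for finitely many planks cut out by open sets. -/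
theorem gen_plank_open {S : Set V} (hS : Convex ℝ S) (hSc : IsCompact S) (hne : S.Nonempty)
    {w : ℝ} (hw : 0 < w) (ν : ι → V) (hν : ∀ i, ‖ν i‖ = 1)
    (x y : ι → V) (hx : ∀ i, x i ∈ S) (hy : ∀ i, y i ∈ S) (hxy : ∀ i, x i - y i = w • ν i)
    (U : ι → Set ℝ) (hU : ∀ i, IsOpen (U i))
    (hcov : ∀ z ∈ S, ∃ i, inner ℝ z (ν i) ∈ U i) :
    ENNReal.ofReal w ≤ ∑ i, volume (U i) := by
  classical
  -- Lebesgue number of the cover
  have hopen : ∀ i, IsOpen {z : V | inner ℝ z (ν i) ∈ U i} := fun i =>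
    (hU i).preimage (continuous_id.inner continuous_const)
  have hsub : S ⊆ ⋃ i, {z : V | inner ℝ z (ν i) ∈ U i} := by
    intro z hz
    obtain ⟨i, hi⟩ := hcov z hz
    exact mem_iUnion.2 ⟨i, hi⟩
  obtain ⟨δ, hδ, hleb⟩ := lebesgue_number_lemma_of_metric hSc hopen hsub
  obtain ⟨R, hR, hRb⟩ := hSc.isBounded.exists_pos_norm_le
  set η : ℝ := δ / 2 with hηdef
  have hη : 0 < η := by positivity
  -- the grid planks
  obtain ⟨N, hN⟩ := exists_nat_gt (R / η + 1)
  set F : Finset (ι × ℤ) := (Finset.univ ×ˢ Finset.Icc (-(N : ℤ)) N).filter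
    (fun p => Icc (p.2 * η) ((p.2 + 1) * η) ⊆ U p.1) with hF
  -- every point of `S` lies in a grid plank
  have hcovF : ∀ z ∈ S, ∃ p : F, |inner ℝ z (ν p.1.1) - (p.1.2 + 1 / 2) * η| ≤ η / 2 := by
    intro z hz
    obtain ⟨i, hi⟩ := hleb z hz
    set t : ℝ := inner ℝ z (ν i) with ht
    set k : ℤ := ⌊t / η⌋ with hk
    have hk1 : (k : ℝ) * η ≤ t := by
      have := Int.floor_le (t / η)
      rw [← hk] at this
      calc (k : ℝ) * η ≤ t / η * η := mul_le_mul_of_nonneg_right this hη.le
        _ = t := by field_simp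
    have hk2 : t < ((k : ℝ) + 1) * η := by
      have := Int.lt_floor_add_one (t / η)
      rw [← hk] at this
      calc t = t / η * η := by field_simp
        _ < ((k : ℝ) + 1) * η := mul_lt_mul_of_pos_right this hη
    have htR : |t| ≤ R := by
      have := abs_real_inner_le_norm z (ν i)
      rw [hν i, mul_one] at this
      exact this.trans (hRb z hz)
    have hkN : k ∈ Finset.Icc (-(N : ℤ)) N := by
      rw [Finset.mem_Icc]
      have h1 : (k : ℝ) ≤ t / η := Int.floor_le _
      have h2 : t / η < (k : ℝ) + 1 := Int.lt_floor_add_one _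
      have h3 : t / η ≤ R / η := by
        apply div_le_div_of_nonneg_right _ hη.le
        exact (le_abs_self t).trans htR
      have h4 : -(R / η) ≤ t / η := by
        rw [← neg_div]
        apply div_le_div_of_nonneg_right _ hη.le
        linarith [neg_abs_le t]
      constructor
      · have : (-(N : ℝ)) < (k : ℝ) + 1 - 1 := by linarith
        have h5 : ((-(N : ℤ) : ℤ) : ℝ) < (k : ℝ) := by push_cast; linarith
        exact le_of_lt (by exact_mod_cast h5)
      · have h5 : (k : ℝ) < (N : ℝ) := by linarith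
        exact le_of_lt (by exact_mod_cast h5)
    have hIcc : Icc ((k : ℝ) * η) (((k : ℝ) + 1) * η) ⊆ U i := by
      intro t' ht'
      have hz' : z + (t' - t) • ν i ∈ Metric.ball z δ := by
        rw [Metric.mem_ball, dist_eq_norm, add_sub_cancel_left, norm_smul, hν i, mul_one,
          Real.norm_eq_abs, abs_lt]
        constructor
        · have : (k : ℝ) * η ≤ t' := ht'.1
          linarith
        · have : t' ≤ ((k : ℝ) + 1) * η := ht'.2
          linarith
      have := hi hz'
      simp only [mem_ofPred_eq] at this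
      rw [inner_add_left, inner_smul_left, real_inner_self_eq_norm_sq, hν i] at this
      simpa [ht] using this
    have hpF : (i, k) ∈ F := by
      rw [hF, Finset.mem_filter, Finset.mem_product]
      exact ⟨⟨Finset.mem_univ _, hkN⟩, hIcc⟩
    refine ⟨⟨(i, k), hpF⟩, ?_⟩
    rw [abs_le]
    constructor <;> simp only <;> linarith
  -- apply the plank theorem to the grid planks
  have key := plank_chord hS hne hw (fun p : F => ν p.1.1) (fun p => hν _)
    (fun p : F => ((p.1.2 : ℝ) + 1 / 2) * η) (fun _ => η / 2) (fun _ => by positivity)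
    (fun p => x p.1.1) (fun p => y p.1.1) (fun p => hx _) (fun p => hy _) (fun p => hxy _)
    hcovF
  have hsumF : ∑ _p : F, 2 * (η / 2) = F.card * η := by
    simp only [Finset.sum_const, Finset.card_univ, Fintype.card_coe, nsmul_eq_mul]
    ring
  rw [hsumF] at key
  -- the grid planks in direction `i` are disjoint subsets of `U i`
  have hcount : (F.card : ℝ≥0∞) * ENNReal.ofReal η ≤ ∑ i, volume (U i) := by
    have h1 : (F.card : ℝ≥0∞) * ENNReal.ofReal η = ∑ p ∈ F, ENNReal.ofReal η := by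
      rw [Finset.sum_const, nsmul_eq_mul]
    rw [h1, hF, Finset.sum_filter, Finset.sum_product]
    apply Finset.sum_le_sum
    intro i _
    rw [← Finset.sum_filter]
    set G : Finset ℤ := (Finset.Icc (-(N : ℤ)) N).filter
      (fun k => Icc ((k : ℝ) * η) (((k : ℝ) + 1) * η) ⊆ U i) with hG
    have h2 : ∑ k ∈ G, ENNReal.ofReal η = ∑ k ∈ G, volume (Ico ((k : ℝ) * η) (((k : ℝ) + 1) * η)) := by
      apply Finset.sum_congr rfl
      intro k _
      rw [Real.volume_Ico]
      congr 1
      ring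
    have h2' : ∑ k ∈ G, ENNReal.ofReal η = ∑ k ∈ G, ENNReal.ofReal η := rfl
    calc ∑ k ∈ G, ENNReal.ofReal η
        = ∑ k ∈ G, volume (Ico ((k : ℝ) * η) (((k : ℝ) + 1) * η)) := h2
      _ = volume (⋃ k ∈ G, Ico ((k : ℝ) * η) (((k : ℝ) + 1) * η)) := by
          rw [measure_biUnion_finset]
          · intro k _ k' _ hkk
            exact volume_Ico_grid_disjoint hη hkk
          · intro k _
            exact measurableSet_Ico
      _ ≤ volume (U i) := by
          apply measure_mono
          intro t ht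
          simp only [mem_iUnion] at ht
          obtain ⟨k, hk, htk⟩ := ht
          rw [hG, Finset.mem_filter] at hk
          exact hk.2 ⟨htk.1, htk.2.le⟩
  calc ENNReal.ofReal w ≤ ENNReal.ofReal (F.card * η) := ENNReal.ofReal_le_ofReal key
    _ = (F.card : ℝ≥0∞) * ENNReal.ofReal η := by
        rw [ENNReal.ofReal_mul (Nat.cast_nonneg _), ENNReal.ofReal_natCast]
    _ ≤ _ := hcount

/-- **Generalized planks.** If a compact convex set with chords `w • ν i` is covered by the sets
`{z | ⟪z, ν i⟫ ∈ Eset i}`, then the Lebesgue outer measures of the `Eset i` sum to at least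
`w`. -/
theorem gen_plank {S : Set V} (hS : Convex ℝ S) (hSc : IsCompact S) (hne : S.Nonempty)
    {w : ℝ} (hw : 0 < w) (ν : ι → V) (hν : ∀ i, ‖ν i‖ = 1)
    (x y : ι → V) (hx : ∀ i, x i ∈ S) (hy : ∀ i, y i ∈ S) (hxy : ∀ i, x i - y i = w • ν i)
    (Eset : ι → Set ℝ) (hcov : ∀ z ∈ S, ∃ i, inner ℝ z (ν i) ∈ Eset i) :
    ENNReal.ofReal w ≤ ∑ i, volume (Eset i) := by
  apply ENNReal.le_of_forall_pos_le_add
  intro ε hε _
  set m : ℕ := Fintype.card ι with hm
  have hε' : ((ε : ℝ≥0∞) / (m + 1)) ≠ 0 := by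
    apply ENNReal.div_ne_zero.2
    refine ⟨by exact_mod_cast hε.ne', ?_⟩
    exact ENNReal.add_ne_top.2 ⟨ENNReal.natCast_ne_top m, ENNReal.one_ne_top⟩
  choose U hEU hUo hUle using fun i => (Eset i).exists_isOpen_le_add volume hε'
  have h1 := gen_plank_open hS hSc hne hw ν hν x y hx hy hxy U hUo
    (fun z hz => by
      obtain ⟨i, hi⟩ := hcov z hz
      exact ⟨i, hEU i hi⟩)
  calc ENNReal.ofReal w ≤ ∑ i, volume (U i) := h1
    _ ≤ ∑ i, (volume (Eset i) + (ε : ℝ≥0∞) / (m + 1)) := Finset.sum_le_sum fun i _ => hUle i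
    _ = ∑ i, volume (Eset i) + m * ((ε : ℝ≥0∞) / (m + 1)) := by
        rw [Finset.sum_add_distrib, Finset.sum_const, Finset.card_univ, nsmul_eq_mul]
    _ ≤ ∑ i, volume (Eset i) + ε := by
        gcongr
        rw [← mul_div_assoc, mul_comm]
        apply ENNReal.div_le_of_le_mul
        gcongr
        exact le_self_add

end GenPlank

end Vale.Agent.H76
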