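import Vale.Agent.H76.Lev

/-!
# Sections of a planar convex set dominate a tent function

For a compact convex set `P ⊆ ℝ × ℝ` whose first projection is exactly `[c0, c1]`, the length of
the section of `P` over `c` is at least `tent c * area P / (c1 - c0)`, where
`tent c = 2 * min (c - c0) (c1 - c) / (c1 - c0)`.
-/

open MeasureTheory Set
open scoped Pointwise ENNReal

namespace Vale.Agent.H76

variable {P : Set (ℝ × ℝ)}

/-- A point of the projection lies in the chord level set of the length of its section. -/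
theorem mem_Lev_toReal (hP : IsCompact P) (hPc : Convex ℝ P) {c : ℝ} (hc : c ∈ Prod.fst '' P) :
    c ∈ Lev P (volume (Prod.mk c ⁻¹' P)).toReal := by
  have hfin : volume (Prod.mk c ⁻¹' P) ≠ ⊤ := (section_isCompact hP c).measure_lt_top.ne
  rcases (ENNReal.toReal_nonneg (a := volume (Prod.mk c ⁻¹' P))).eq_or_lt with h0 | hpos
  · rw [← h0, Lev_of_nonpos P le_rfl]
    exact hc
  · rw [← ofReal_le_volume_section_iff hP hPc c hpos, ENNReal.ofReal_toReal hfin]

theorem section_eq_empty {c : ℝ} (hc : c ∉ Prod.fst '' P) : Prod.mk c ⁻¹' P = ∅ := by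
  ext z
  simp only [mem_preimage, mem_empty_iff_false, iff_false]
  intro hz
  exact hc ⟨(c, z), hz, rfl⟩

theorem Icc_subset_fst (hPc : Convex ℝ P) {c0 c1 : ℝ} (h0 : c0 ∈ Prod.fst '' P)
    (h1 : c1 ∈ Prod.fst '' P) : Icc c0 c1 ⊆ Prod.fst '' P := by
  have hconv : Convex ℝ (Prod.fst '' P) :=
    hPc.is_linear_image (IsLinearMap.mk (fun _ _ => rfl) (fun _ _ => rfl))
  exact hconv.ordConnected.out h0 h1

/-- Midpoint concavity of the section length. -/
theorem section_add_reflect_le (hP : IsCompact P) (hPc : Convex ℝ P) {c0 c1 : ℝ}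
    (h0 : c0 ∈ Prod.fst '' P) (h1 : c1 ∈ Prod.fst '' P) (hsub : Prod.fst '' P ⊆ Icc c0 c1)
    (c : ℝ) :
    volume (Prod.mk c ⁻¹' P) + volume (Prod.mk (c0 + c1 - c) ⁻¹' P) ≤
      (Icc c0 c1).indicator (fun _ => 2 * volume (Prod.mk ((c0 + c1) / 2) ⁻¹' P)) c := by
  by_cases hc : c ∈ Icc c0 c1
  · rw [indicator_of_mem hc]
    have hc' : c0 + c1 - c ∈ Icc c0 c1 := ⟨by linarith [hc.2], by linarith [hc.1]⟩
    have hI := Icc_subset_fst hPc h0 h1
    have m1 := mem_Lev_toReal hP hPc (hI hc)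
    have m2 := mem_Lev_toReal hP hPc (hI hc')
    set a := (volume (Prod.mk c ⁻¹' P)).toReal with ha
    set b := (volume (Prod.mk (c0 + c1 - c) ⁻¹' P)).toReal with hb
    have hfa : volume (Prod.mk c ⁻¹' P) ≠ ⊤ := (section_isCompact hP c).measure_lt_top.ne
    have hfb : volume (Prod.mk (c0 + c1 - c) ⁻¹' P) ≠ ⊤ :=
      (section_isCompact hP _).measure_lt_top.ne
    have ha0 : 0 ≤ a := ENNReal.toReal_nonneg
    have hb0 : 0 ≤ b := ENNReal.toReal_nonneg
    have hmid : (c0 + c1) / 2 ∈ Lev P ((a + b) / 2) := by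
      have h := Lev_combo hPc (by norm_num : (0 : ℝ) ≤ 1 / 2) (by norm_num : (0 : ℝ) ≤ 1 / 2)
        (by norm_num) a b
      have hmem : (c0 + c1) / 2 ∈ (1 / 2 : ℝ) • Lev P a + (1 / 2 : ℝ) • Lev P b := by
        refine ⟨(1 / 2 : ℝ) • c, ⟨c, m1, rfl⟩, (1 / 2 : ℝ) • (c0 + c1 - c), ⟨_, m2, rfl⟩, ?_⟩
        simp only [smul_eq_mul]
        ring
      have := h hmem
      convert this using 2
      ring
    rw [← ENNReal.ofReal_toReal hfa, ← ENNReal.ofReal_toReal hfb, ← ha, ← hb,
      ← ENNReal.ofReal_add ha0 hb0]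
    rcases (add_nonneg ha0 hb0).eq_or_lt with h0' | hpos
    · rw [← h0']
      simp
    · have h2 := (ofReal_le_volume_section_iff hP hPc ((c0 + c1) / 2)
        (by positivity : 0 < (a + b) / 2)).2 hmid
      calc ENNReal.ofReal (a + b) = 2 * ENNReal.ofReal ((a + b) / 2) := by
            rw [← ENNReal.ofReal_ofNat 2, ← ENNReal.ofReal_mul (by norm_num)]
            congr 1
            ring
        _ ≤ _ := mul_le_mul' le_rfl h2
  · rw [indicator_of_notMem hc]
    have hc' : c0 + c1 - c ∉ Icc c0 c1 := by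
      intro h
      exact hc ⟨by linarith [h.2], by linarith [h.1]⟩
    rw [section_eq_empty (fun h => hc (hsub h)), section_eq_empty (fun h => hc' (hsub h))]
    simp

/-- The area is at most the width of the projection times the middle section. -/
theorem volume_le_mid_section (hP : IsCompact P) (hPc : Convex ℝ P) {c0 c1 : ℝ}
    (h01 : c0 ≤ c1)
    (h0 : c0 ∈ Prod.fst '' P) (h1 : c1 ∈ Prod.fst '' P) (hsub : Prod.fst '' P ⊆ Icc c0 c1) :
    volume P ≤ ENNReal.ofReal (c1 - c0) * volume (Prod.mk ((c0 + c1) / 2) ⁻¹' P) := by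
  have hPm : MeasurableSet P := hP.isClosed.measurableSet
  have hmeas : Measurable fun c : ℝ => volume (Prod.mk c ⁻¹' P) :=
    measurable_measure_prodMk_left hPm
  have hvol : volume P = ∫⁻ c, volume (Prod.mk c ⁻¹' P) := by
    rw [Measure.volume_eq_prod, Measure.prod_apply hPm]
  have hrefl : ∫⁻ c, volume (Prod.mk (c0 + c1 - c) ⁻¹' P) = ∫⁻ c, volume (Prod.mk c ⁻¹' P) :=
    lintegral_sub_left_eq_self (fun c => volume (Prod.mk c ⁻¹' P)) (c0 + c1)
  have h2 : 2 * volume P ≤
      2 * (ENNReal.ofReal (c1 - c0) * volume (Prod.mk ((c0 + c1) / 2) ⁻¹' P)) := by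
    calc 2 * volume P = (∫⁻ c, volume (Prod.mk c ⁻¹' P)) +
          ∫⁻ c, volume (Prod.mk (c0 + c1 - c) ⁻¹' P) := by rw [hrefl, ← hvol, two_mul]
      _ = ∫⁻ c, (volume (Prod.mk c ⁻¹' P) + volume (Prod.mk (c0 + c1 - c) ⁻¹' P)) :=
          (lintegral_add_left hmeas _).symm
      _ ≤ ∫⁻ c, (Icc c0 c1).indicator
            (fun _ => 2 * volume (Prod.mk ((c0 + c1) / 2) ⁻¹' P)) c :=
          lintegral_mono fun c => section_add_reflect_le hP hPc h0 h1 hsub c
      _ = 2 * volume (Prod.mk ((c0 + c1) / 2) ⁻¹' P) * ENNReal.ofReal (c1 - c0) := by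
          rw [lintegral_indicator measurableSet_Icc, lintegral_const, Measure.restrict_apply
            MeasurableSet.univ, univ_inter, Real.volume_Icc]
      _ = _ := by ring
  exact (ENNReal.mul_le_mul_iff_right (by norm_num) (by norm_num)).1 h2

/-- **Tent bound** for the sections of a planar compact convex set. -/
theorem tent_section (hP : IsCompact P) (hPc : Convex ℝ P) {c0 c1 : ℝ} (h01 : c0 < c1)
    (h0 : c0 ∈ Prod.fst '' P) (h1 : c1 ∈ Prod.fst '' P) (hsub : Prod.fst '' P ⊆ Icc c0 c1)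
    {c : ℝ} (hc : c ∈ Icc c0 c1) :
    ENNReal.ofReal (2 * min (c - c0) (c1 - c) / (c1 - c0)) * volume P ≤
      ENNReal.ofReal (c1 - c0) * volume (Prod.mk c ⁻¹' P) := by
  have hI := Icc_subset_fst hPc h0 h1
  set mid : ℝ := (c0 + c1) / 2 with hmid
  have hmidI : mid ∈ Icc c0 c1 := ⟨by rw [hmid]; linarith, by rw [hmid]; linarith⟩
  set lam : ℝ := 2 * min (c - c0) (c1 - c) / (c1 - c0) with hlam
  have hd : 0 < c1 - c0 := sub_pos.2 h01
  have hlam0 : 0 ≤ lam := by
    rw [hlam]
    have : 0 ≤ min (c - c0) (c1 - c) := le_min (sub_nonneg.2 hc.1) (sub_nonneg.2 hc.2)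
    positivity
  have hlam1 : lam ≤ 1 := by
    rw [hlam, div_le_one hd]
    rcases le_total (c - c0) (c1 - c) with h | h
    · rw [min_eq_left h]; linarith
    · rw [min_eq_right h]; linarith
  -- the section over `c` dominates `lam` times the middle section
  have key : ENNReal.ofReal lam * volume (Prod.mk mid ⁻¹' P) ≤ volume (Prod.mk c ⁻¹' P) := by
    have mm := mem_Lev_toReal hP hPc (hI hmidI)
    set m := (volume (Prod.mk mid ⁻¹' P)).toReal with hm
    have hfm : volume (Prod.mk mid ⁻¹' P) ≠ ⊤ := (section_isCompact hP mid).measure_lt_top.ne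
    have hm0 : 0 ≤ m := ENNReal.toReal_nonneg
    -- `c` is a convex combination of an endpoint and the midpoint
    have hcLev : c ∈ Lev P (lam * m) := by
      rcases le_total (c - c0) (c1 - c) with h | h
      · have e0 : c0 ∈ Lev P 0 := by rw [Lev_of_nonpos P le_rfl]; exact h0
        have hcomb := Lev_combo hPc (sub_nonneg.2 hlam1) hlam0 (by ring) 0 m
        have hmem : c ∈ (1 - lam) • Lev P 0 + lam • Lev P m := by
          refine ⟨(1 - lam) • c0, ⟨c0, e0, rfl⟩, lam • mid, ⟨mid, mm, rfl⟩, ?_⟩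
          simp only [smul_eq_mul, hlam, hmid, min_eq_left h]
          field_simp
          ring
        have := hcomb hmem
        convert this using 2
        ring
      · have e1 : c1 ∈ Lev P 0 := by rw [Lev_of_nonpos P le_rfl]; exact h1
        have hcomb := Lev_combo hPc (sub_nonneg.2 hlam1) hlam0 (by ring) 0 m
        have hmem : c ∈ (1 - lam) • Lev P 0 + lam • Lev P m := by
          refine ⟨(1 - lam) • c1, ⟨c1, e1, rfl⟩, lam • mid, ⟨mid, mm, rfl⟩, ?_⟩
          simp only [smul_eq_mul, hlam, hmid, min_eq_right h]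
          field_simp
          ring
        have := hcomb hmem
        convert this using 2
        ring
    rw [← ENNReal.ofReal_toReal hfm, ← hm, ← ENNReal.ofReal_mul hlam0]
    rcases (mul_nonneg hlam0 hm0).eq_or_lt with hz | hpos
    · rw [← hz]
      simp
    · exact (ofReal_le_volume_section_iff hP hPc c hpos).2 hcLev
  calc ENNReal.ofReal lam * volume P
      ≤ ENNReal.ofReal lam * (ENNReal.ofReal (c1 - c0) * volume (Prod.mk mid ⁻¹' P)) :=
        mul_le_mul' le_rfl (volume_le_mid_section hP hPc h01.le h0 h1 hsub)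
    _ = ENNReal.ofReal (c1 - c0) * (ENNReal.ofReal lam * volume (Prod.mk mid ⁻¹' P)) := by ring
    _ ≤ _ := mul_le_mul' le_rfl key

end Vale.Agent.H76
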