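import Vale.Agent.H76.Coord
import Vale.Agent.H76.Plank2
import Vale.Agent.H76.Tent
import Vale.Agent.H76.Cone

/-!
# Cylinders with coplanar axes

If a convex body in three dimensional space is covered by finitely many cylinders whose axes
are all orthogonal to one unit vector `n`, then the base areas sum to at least half of the
smallest shadow area of the body.
-/

open MeasureTheory Set Module
open scoped ENNReal

namespace Vale.Agent.H76

section Frame

variable {E : Type*} [NormedAddCommGroup E] [InnerProductSpace ℝ E] [FiniteDimensional ℝ E]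

/-- An orthonormal pair in three dimensional space extends to an orthonormal frame. -/
theorem exists_third (hE : finrank ℝ E = 3) (a b : E) (ha : ‖a‖ = 1) (hb : ‖b‖ = 1)
    (hab : inner ℝ a b = 0) :
    ∃ c : E, ‖c‖ = 1 ∧ inner ℝ c a = 0 ∧ inner ℝ c b = 0 ∧
      ∀ x : E, x = inner ℝ x a • a + inner ℝ x b • b + inner ℝ x c • c := by
  classical
  let v : Fin 3 → E := ![a, b, 0]
  have hba : inner ℝ b a = 0 := by rw [real_inner_comm]; exact hab
  have hv : Orthonormal ℝ (({0, 1} : Set (Fin 3)).domRestrict v) := by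
    constructor
    · rintro ⟨i, hi⟩
      rw [Set.domRestrict_apply]
      rcases hi with rfl | rfl
      · simpa [v] using ha
      · simpa [v] using hb
    · rintro ⟨i, hi⟩ ⟨j, hj⟩ hij
      show inner ℝ (Set.domRestrict _ v _) (Set.domRestrict _ v _) = 0
      rw [Set.domRestrict_apply, Set.domRestrict_apply]
      rcases hi with rfl | rfl <;> rcases hj with rfl | rfl
      · exact absurd rfl hij
      · simpa [v] using hab
      · simpa [v] using hba
      · exact absurd rfl hij
  obtain ⟨bas, hbas⟩ := hv.exists_orthonormalBasis_extension_of_card_eq (by simp [hE])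
  have h0 : bas 0 = a := by
    have := hbas 0 (by simp)
    simpa [v] using this
  have h1 : bas 1 = b := by
    have := hbas 1 (by simp)
    simpa [v] using this
  have hon := bas.orthonormal
  refine ⟨bas 2, hon.1 2, ?_, ?_, ?_⟩
  · rw [← h0]
    exact hon.2 (by decide)
  · rw [← h1]
    exact hon.2 (by decide)
  · intro x
    have := bas.sum_repr' x
    rw [Fin.sum_univ_three, h0, h1] at this
    rw [real_inner_comm a, real_inner_comm b, real_inner_comm (bas 2)]
    exact this.symm

end Frame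

section Planar

/-- Width of a section of a planar convex set from its area. -/
theorem width_of_area {P : Set (ℝ × ℝ)} (hP : IsCompact P) (hPc : Convex ℝ P) {c0 c1 : ℝ}
    (h01 : c0 < c1) (h0 : c0 ∈ Prod.fst '' P) (h1 : c1 ∈ Prod.fst '' P)
    (hsub : Prod.fst '' P ⊆ Icc c0 c1) {c : ℝ} (hc : c ∈ Icc c0 c1) {A : ℝ}
    (hA : ENNReal.ofReal A ≤ volume P) {w : ℝ} (hw : 0 < w)
    (hwdef : w = 2 * min (c - c0) (c1 - c) / (c1 - c0) * A / (c1 - c0)) :
    ∃ z z' : ℝ, (c, z) ∈ P ∧ (c, z') ∈ P ∧ w ≤ z' - z := by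
  have hd : 0 < c1 - c0 := sub_pos.2 h01
  have ht := tent_section hP hPc h01 h0 h1 hsub hc
  set tent : ℝ := 2 * min (c - c0) (c1 - c) / (c1 - c0) with htent
  have htent0 : 0 ≤ tent := by
    apply div_nonneg _ hd.le
    have := le_min (sub_nonneg.2 hc.1) (sub_nonneg.2 hc.2)
    linarith
  have h2 : ENNReal.ofReal (c1 - c0) * ENNReal.ofReal w ≤
      ENNReal.ofReal (c1 - c0) * volume (Prod.mk c ⁻¹' P) := by
    calc ENNReal.ofReal (c1 - c0) * ENNReal.ofReal w
        = ENNReal.ofReal tent * ENNReal.ofReal A := by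
          rw [← ENNReal.ofReal_mul hd.le, ← ENNReal.ofReal_mul htent0]
          congr 1
          rw [hwdef]
          field_simp
      _ ≤ ENNReal.ofReal tent * volume P := by gcongr
      _ ≤ _ := ht
  have h3 : ENNReal.ofReal w ≤ volume (Prod.mk c ⁻¹' P) :=
    (ENNReal.mul_le_mul_iff_right (by simpa using hd) ENNReal.ofReal_ne_top).1 h2
  exact (ofReal_le_volume_section_iff hP hPc c hw).1 h3

/-- The integral of the tent profile. -/
theorem integral_tent {c0 c1 : ℝ} (h01 : c0 < c1) (k : ℝ) :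
    ∫ c in c0..c1, max 0 (min (c - c0) (c1 - c)) * k = (c1 - c0) ^ 2 / 4 * k := by
  set mid : ℝ := (c0 + c1) / 2 with hmid
  have hcont : Continuous fun c : ℝ => max 0 (min (c - c0) (c1 - c)) * k := by fun_prop
  rw [← intervalIntegral.integral_add_adjacent_intervals (hcont.intervalIntegrable c0 mid)
    (hcont.intervalIntegrable mid c1)]
  have e1 : ∫ c in c0..mid, max 0 (min (c - c0) (c1 - c)) * k = ∫ c in c0..mid, (c - c0) * k := by
    apply intervalIntegral.integral_congr
    intro c hc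
    rw [uIcc_of_le (by rw [hmid]; linarith)] at hc
    have h1 : c - c0 ≤ c1 - c := by have := hc.2; rw [hmid] at this; linarith
    have h2 : 0 ≤ c - c0 := sub_nonneg.2 hc.1
    simp only
    rw [min_eq_left h1, max_eq_right h2]
  have e2 : ∫ c in mid..c1, max 0 (min (c - c0) (c1 - c)) * k = ∫ c in mid..c1, (c1 - c) * k := by
    apply intervalIntegral.integral_congr
    intro c hc
    rw [uIcc_of_le (by rw [hmid]; linarith)] at hc
    have h1 : c1 - c ≤ c - c0 := by have := hc.1; rw [hmid] at this; linarith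
    have h2 : 0 ≤ c1 - c := sub_nonneg.2 hc.2
    simp only
    rw [min_eq_right h1, max_eq_right h2]
  rw [e1, e2]
  simp only [intervalIntegral.integral_mul_const]
  rw [intervalIntegral.integral_sub (by apply Continuous.intervalIntegrable; fun_prop)
    (by apply Continuous.intervalIntegrable; fun_prop),
    intervalIntegral.integral_sub (by apply Continuous.intervalIntegrable; fun_prop)
    (by apply Continuous.intervalIntegrable; fun_prop)]
  simp only [integral_id, intervalIntegral.integral_const, smul_eq_mul]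
  rw [hmid]
  ring

end Planar

section Main

variable {E : Type*} [NormedAddCommGroup E] [InnerProductSpace ℝ E]

theorem coord_image_compact (K : Set E) (hK : IsCompact K) (a b : E) :
    IsCompact ((fun x : E => ((inner ℝ x a, inner ℝ x b) : ℝ × ℝ)) '' K) :=
  hK.image (by fun_prop)

theorem coord_image_convex (K : Set E) (hK : Convex ℝ K) (a b : E) :
    Convex ℝ ((fun x : E => ((inner ℝ x a, inner ℝ x b) : ℝ × ℝ)) '' K) := by
  rintro _ ⟨x1, hx1, rfl⟩ _ ⟨x2, hx2, rfl⟩ s t hs ht hst
  refine ⟨s • x1 + t • x2, hK hx1 hx2 hs ht hst, ?_⟩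
  ext <;> simp [inner_add_left, inner_smul_left]

variable [FiniteDimensional ℝ E] [MeasurableSpace E] [BorelSpace E]

/-- The smallest shadow is at most the area of the coordinate image along any frame. -/
theorem shadow_le_coord (hE : finrank ℝ E = 3) (K : Set E) (n ν' : E) (hn : ‖n‖ = 1)
    (hν' : ‖ν'‖ = 1) (hnν : inner ℝ n ν' = 0) :
    (⨅ v : E, ⨅ _ : ‖v‖ = 1 ∧ inner ℝ v n = 0,
        μHE[2] ((fun x => x - inner ℝ x v • v) '' K)) ≤
      volume ((fun x : E => ((inner ℝ x n, inner ℝ x ν') : ℝ × ℝ)) '' K) := by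
  obtain ⟨u', hu'1, hu'n, hu'ν, hdec⟩ := exists_third hE n ν' hn hν' hnν
  refine iInf_le_of_le u' (iInf_le_of_le ⟨hu'1, hu'n⟩ ?_)
  rw [hausdorff_coord n ν' hn hν' hnν, image_image]
  · apply le_of_eq
    congr 1
    apply image_congr
    intro x _
    simp [inner_sub_left, inner_smul_left, hu'n, hu'ν]
  · rintro _ ⟨y, hy, rfl⟩
    have h1 : inner ℝ (y - inner ℝ y u' • u') n = inner ℝ y n := by
      simp [inner_sub_left, inner_smul_left, hu'n]
    have h2 : inner ℝ (y - inner ℝ y u' • u') ν' = inner ℝ y ν' := by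
      simp [inner_sub_left, inner_smul_left, hu'ν]
    rw [h1, h2]
    exact sub_eq_iff_eq_add.2 (hdec y)

/-- **Cylinders with coplanar axes.** -/
theorem coplanar_axes (hE : finrank ℝ E = 3) {ι : Type*} [Fintype ι]
    (K : Set E) (hKconv : Convex ℝ K) (hKcomp : IsCompact K) (hKint : (interior K).Nonempty)
    (n : E) (hn : ‖n‖ = 1) (u : ι → E) (hu : ∀ i, ‖u i‖ = 1) (hperp : ∀ i, inner ℝ (u i) n = 0)
    (B : ι → Set E) (hB : ∀ i, ∀ x ∈ B i, inner ℝ x (u i) = 0)
    (hcov : K ⊆ ⋃ i, {x | ∃ b ∈ B i, ∃ t : ℝ, x = b + t • u i}) :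
    (⨅ v : E, ⨅ _ : ‖v‖ = 1 ∧ inner ℝ v n = 0,
        μHE[2] ((fun x => x - inner ℝ x v • v) '' K)) / 2 ≤
      ∑ i, μHE[2] (B i) := by
  classical
  have : CompleteSpace E := FiniteDimensional.complete ℝ E
  -- frames
  have hnu : ∀ i, inner ℝ n (u i) = 0 := fun i => by rw [real_inner_comm]; exact hperp i
  choose ν hν1 hνn hνu hdec using fun i => exists_third hE n (u i) hn (hu i) (hnu i)
  have hnν : ∀ i, inner ℝ n (ν i) = 0 := fun i => by rw [real_inner_comm]; exact hνn i
  have huν : ∀ i, inner ℝ (u i) (ν i) = 0 := fun i => by rw [real_inner_comm]; exact hνu i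
  -- coordinates of the bases
  set q : ι → E → ℝ × ℝ := fun i x => (inner ℝ x n, inner ℝ x (ν i)) with hq
  have hBvol : ∀ i, μHE[2] (B i) = volume (q i '' B i) := by
    intro i
    apply hausdorff_coord n (ν i) hn (hν1 i) (hnν i)
    intro x hx
    have := hdec i x
    rw [hB i x hx, zero_smul, add_zero] at this
    exact this
  -- a point and an index
  obtain ⟨p, hp⟩ := hKint
  have hpK : p ∈ K := interior_subset hp
  obtain ⟨i0, -⟩ := mem_iUnion.1 (hcov hpK)
  -- extreme levels
  have hfc : Continuous fun x : E => inner ℝ x n := by fun_prop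
  obtain ⟨x0, hx0, hmin⟩ := hKcomp.exists_isMinOn ⟨p, hpK⟩ hfc.continuousOn
  obtain ⟨x1, hx1, hmax⟩ := hKcomp.exists_isMaxOn ⟨p, hpK⟩ hfc.continuousOn
  set c0 : ℝ := inner ℝ x0 n with hc0
  set c1 : ℝ := inner ℝ x1 n with hc1
  have hlow : ∀ x ∈ K, c0 ≤ inner ℝ x n := fun x hx => hmin hx
  have hhigh : ∀ x ∈ K, inner ℝ x n ≤ c1 := fun x hx => hmax hx
  have h01 : c0 < c1 := by
    obtain ⟨ε, hε, hball⟩ := Metric.isOpen_iff.1 isOpen_interior p hp
    have hmem : ∀ s : ℝ, |s| < ε → p + s • n ∈ K := by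
      intro s hs
      apply interior_subset
      apply hball
      rw [Metric.mem_ball, dist_eq_norm]
      simpa [norm_smul, hn] using hs
    have ha := hhigh _ (hmem (ε / 2) (by rw [abs_of_pos (by linarith)]; linarith))
    have hb := hlow _ (hmem (-(ε / 2)) (by rw [abs_neg, abs_of_pos (by linarith)]; linarith))
    rw [inner_add_left, inner_smul_left, real_inner_self_eq_norm_sq, hn] at ha hb
    simp at ha hb
    linarith
  have hd : 0 < c1 - c0 := sub_pos.2 h01
  -- the smallest shadow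
  set Amin : ℝ≥0∞ := ⨅ v : E, ⨅ _ : ‖v‖ = 1 ∧ inner ℝ v n = 0,
    μHE[2] ((fun x => x - inner ℝ x v • v) '' K) with hAmin
  have hshadow : ∀ ν' : E, ‖ν'‖ = 1 → inner ℝ n ν' = 0 →
      Amin ≤ volume ((fun x : E => ((inner ℝ x n, inner ℝ x ν') : ℝ × ℝ)) '' K) :=
    fun ν' h1 h2 => shadow_le_coord hE K n ν' hn h1 h2
  have hAtop : Amin ≠ ⊤ := by
    have := hshadow (ν i0) (hν1 i0) (hnν i0)
    exact ne_top_of_le_ne_top (coord_image_compact K hKcomp _ _).measure_lt_top.ne this
  set A : ℝ := Amin.toReal with hA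
  have hA0 : 0 ≤ A := ENNReal.toReal_nonneg
  have hAof : ENNReal.ofReal A = Amin := ENNReal.ofReal_toReal hAtop
  -- width function
  set w : ℝ → ℝ := fun c => 2 * min (c - c0) (c1 - c) / (c1 - c0) * A / (c1 - c0) with hw
  have hw0 : ∀ c ∈ Icc c0 c1, 0 ≤ w c := by
    intro c hc
    have hmn : 0 ≤ min (c - c0) (c1 - c) := le_min (sub_nonneg.2 hc.1) (sub_nonneg.2 hc.2)
    simp only [hw]
    positivity
  -- measurable hulls
  set M : ι → Set (ℝ × ℝ) := fun i => toMeasurable volume (q i '' B i) with hM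
  have hMmeas : ∀ i, MeasurableSet (M i) := fun i => measurableSet_toMeasurable _ _
  have hMvol : ∀ i, volume (M i) = volume (q i '' B i) := fun i => measure_toMeasurable _
  have hMsub : ∀ i, q i '' B i ⊆ M i := fun i => subset_toMeasurable _ _
  -- the pointwise plank bound
  have hpoint : ∀ c ∈ Icc c0 c1, ENNReal.ofReal (w c) ≤ ∑ i, volume (Prod.mk c ⁻¹' M i) := by
    intro c hc
    rcases (hw0 c hc).eq_or_lt with h0 | hpos
    · rw [← h0]
      simp
    have hwidth : ∀ ν' : E, ‖ν'‖ = 1 → inner ℝ ν' n = 0 →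
        ∃ x ∈ K ∩ {x | inner ℝ x n = c}, ∃ y ∈ K ∩ {x | inner ℝ x n = c},
          w c ≤ inner ℝ (x - y) ν' := by
      intro ν' h1 h2
      have h2' : inner ℝ n ν' = 0 := by rw [real_inner_comm]; exact h2
      set P : Set (ℝ × ℝ) := (fun x : E => ((inner ℝ x n, inner ℝ x ν') : ℝ × ℝ)) '' K with hP
      have hPcomp : IsCompact P := coord_image_compact K hKcomp _ _
      have hPconv : Convex ℝ P := coord_image_convex K hKconv _ _
      have hP0 : c0 ∈ Prod.fst '' P := ⟨_, ⟨x0, hx0, rfl⟩, rfl⟩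
      have hP1 : c1 ∈ Prod.fst '' P := ⟨_, ⟨x1, hx1, rfl⟩, rfl⟩
      have hPsub : Prod.fst '' P ⊆ Icc c0 c1 := by
        rintro _ ⟨_, ⟨x, hx, rfl⟩, rfl⟩
        exact ⟨hlow x hx, hhigh x hx⟩
      have hAP : ENNReal.ofReal A ≤ volume P := by
        rw [hAof]
        exact hshadow ν' h1 h2'
      obtain ⟨z, z', ⟨y, hy, hyq⟩, ⟨x, hx, hxq⟩, hzz⟩ :=
        width_of_area hPcomp hPconv h01 hP0 hP1 hPsub hc hAP hpos rfl
      have hy1 : inner ℝ y n = c := congrArg Prod.fst hyq
      have hy2 : inner ℝ y ν' = z := congrArg Prod.snd hyq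
      have hx1' : inner ℝ x n = c := congrArg Prod.fst hxq
      have hx2 : inner ℝ x ν' = z' := congrArg Prod.snd hxq
      refine ⟨x, ⟨hx, hx1'⟩, y, ⟨hy, hy1⟩, ?_⟩
      rw [inner_sub_left, hx2, hy2]
      exact hzz
    set S : Set E := K ∩ {x | inner ℝ x n = c} with hS
    have hSconv : Convex ℝ S := by
      apply hKconv.inter
      intro x hx y hy a b ha hb hab
      simp only [mem_ofPred_eq] at hx hy ⊢
      rw [inner_add_left, inner_smul_left, inner_smul_left, hx, hy]
      simp only [conj_trivial]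
      rw [← add_mul, hab, one_mul]
    have hScomp : IsCompact S := hKcomp.inter_right (isClosed_eq hfc continuous_const)
    have hSne : S.Nonempty := by
      obtain ⟨x, hx, -⟩ := hwidth (ν i0) (hν1 i0) (hνn i0)
      exact ⟨x, hx⟩
    have hplane : ∀ x ∈ S, ∀ y ∈ S, inner ℝ (x - y) n = 0 := by
      intro x hx y hy
      rw [inner_sub_left, hx.2, hy.2, sub_self]
    have hchord : ∀ i, ∃ x ∈ S, ∃ y ∈ S, x - y = w c • ν i := fun i =>
      chord_of_width hSconv hScomp hSne n hn hplane hpos.le hwidth (ν i) (hν1 i) (hνn i)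
    choose xs hxs ys hys hxy using hchord
    apply gen_plank hSconv hScomp hSne hpos ν hν1 xs ys hxs hys hxy
    intro z hz
    obtain ⟨i, b, hb, t, hzb⟩ := mem_iUnion.1 (hcov hz.1)
    refine ⟨i, ?_⟩
    show (c, inner ℝ z (ν i)) ∈ M i
    apply hMsub i
    refine ⟨b, hb, ?_⟩
    have e1 : inner ℝ b n = c := by
      have := hz.2
      rw [mem_ofPred_eq, hzb, inner_add_left, inner_smul_left, hperp i] at this
      simpa using this
    have e2 : inner ℝ z (ν i) = inner ℝ b (ν i) := by
      rw [hzb, inner_add_left, inner_smul_left, huν i]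
      simp
    simp only [hq]
    rw [e1, e2]
  -- integration over the levels
  have hvolM : ∀ i, volume (M i) = ∫⁻ c, volume (Prod.mk c ⁻¹' M i) := by
    intro i
    rw [Measure.volume_eq_prod, Measure.prod_apply (hMmeas i)]
  have hmeasf : ∀ i, Measurable fun c : ℝ => volume (Prod.mk c ⁻¹' M i) := fun i =>
    measurable_measure_prodMk_left (hMmeas i)
  set k : ℝ := 2 * A / (c1 - c0) ^ 2 with hk
  have hk0 : 0 ≤ k := by positivity
  have hFcont : Continuous fun c : ℝ => max 0 (min (c - c0) (c1 - c)) * k := by fun_prop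
  have hFnn : ∀ c : ℝ, 0 ≤ max 0 (min (c - c0) (c1 - c)) * k := fun c =>
    mul_nonneg (le_max_left _ _) hk0
  calc Amin / 2 = ENNReal.ofReal (A / 2) := by
        rw [ENNReal.ofReal_div_of_pos (by norm_num), hAof]
        simp
    _ = ENNReal.ofReal (∫ c in c0..c1, max 0 (min (c - c0) (c1 - c)) * k) := by
        rw [integral_tent h01]
        congr 1
        rw [hk]
        field_simp
        ring
    _ = ∫⁻ c in Ioc c0 c1, ENNReal.ofReal (max 0 (min (c - c0) (c1 - c)) * k) :=
        (lintegral_ofReal_Ioc hFcont h01.le hFnn).symm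
    _ ≤ ∫⁻ c in Ioc c0 c1, ∑ i, volume (Prod.mk c ⁻¹' M i) := by
        apply setLIntegral_mono' measurableSet_Ioc
        intro c hc
        have hcI : c ∈ Icc c0 c1 := ⟨hc.1.le, hc.2⟩
        refine le_trans (le_of_eq ?_) (hpoint c hcI)
        congr 1
        have hmn : 0 ≤ min (c - c0) (c1 - c) := le_min (sub_nonneg.2 hcI.1) (sub_nonneg.2 hcI.2)
        rw [max_eq_right hmn]
        simp only [hw, hk]
        field_simp
    _ ≤ ∫⁻ c, ∑ i, volume (Prod.mk c ⁻¹' M i) := setLIntegral_le_lintegral _ _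
    _ = ∑ i, ∫⁻ c, volume (Prod.mk c ⁻¹' M i) := lintegral_finsetSum _ (fun i _ => hmeasf i)
    _ = ∑ i, μHE[2] (B i) := by
        apply Finset.sum_congr rfl
        intro i _
        rw [← hvolM i, hMvol i, hBvol i]

/-- The same with the smallest shadow over all directions. -/
theorem coplanar_axes_min (hE : finrank ℝ E = 3) {ι : Type*} [Fintype ι]
    (K : Set E) (hKconv : Convex ℝ K) (hKcomp : IsCompact K) (hKint : (interior K).Nonempty)
    (n : E) (hn : ‖n‖ = 1) (u : ι → E) (hu : ∀ i, ‖u i‖ = 1) (hperp : ∀ i, inner ℝ (u i) n = 0)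
    (B : ι → Set E) (hB : ∀ i, ∀ x ∈ B i, inner ℝ x (u i) = 0)
    (hcov : K ⊆ ⋃ i, {x | ∃ b ∈ B i, ∃ t : ℝ, x = b + t • u i}) :
    (⨅ v : E, ⨅ _ : ‖v‖ = 1, μHE[2] ((fun x => x - inner ℝ x v • v) '' K)) / 2 ≤
      ∑ i, μHE[2] (B i) := by
  refine le_trans ?_ (coplanar_axes hE K hKconv hKcomp hKint n hn u hu hperp B hB hcov)
  apply ENNReal.div_le_div_right
  apply le_iInf
  intro v
  apply le_iInf
  intro hv
  exact iInf_le_of_le v (iInf_le_of_le hv.1 le_rfl)

end Main

end Vale.Agent.H76
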