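import Vale.Agent.H76.BM
import Vale.Agent.H76.Cone

/-!
# Volume of the part of a convex body inside a cylinder

For a compact convex `T ⊆ X × ℝ` over a base space whose measure satisfies the Brunn-Minkowski
inequality with exponent `1/2`, the part of `T` lying over a measurable base set `B` has volume
at most `phi t` times the volume of `T`, where `t` is the fraction of the projection of `T`
occupied by `B` and `phi t = 3 t - 2 t √t`.
-/

open MeasureTheory Set
open scoped Pointwise ENNReal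

set_option linter.unusedSectionVars false

namespace Vale.Agent.H76

variable {X : Type*} [NormedAddCommGroup X] [NormedSpace ℝ X] [MeasurableSpace X]

/-- Brunn-Minkowski property with exponent `1/2` for compact convex sets. -/
def HasBM2 (ν : Measure X) : Prop :=
  ∀ (A B S : Set X), IsCompact A → Convex ℝ A → A.Nonempty → IsCompact B → Convex ℝ B →
    B.Nonempty → IsCompact S → Convex ℝ S → ∀ a b : ℝ, 0 ≤ a → 0 ≤ b → a • A + b • B ⊆ S →
    a * √(ν A).toReal + b * √(ν B).toReal ≤ √(ν S).toReal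

theorem hasBM2_plane : HasBM2 (volume : Measure (ℝ × ℝ)) :=
  fun _ _ _ hA hAc hAn hB hBc hBn hS hSc _ _ ha hb h =>
    bm_plane hA hAc hAn hB hBc hBn hS hSc ha hb h

theorem HasBM2.of_equiv {Y : Type*} [NormedAddCommGroup Y] [NormedSpace ℝ Y] [MeasurableSpace Y]
    [BorelSpace Y] {μ : Measure X} {ν : Measure Y} (e : X ≃L[ℝ] Y)
    (he : MeasurePreserving e μ ν) (h : HasBM2 ν) : HasBM2 μ := by
  intro A B S hA hAc hAn hB hBc hBn hS hSc a b ha hb hsub
  have hmeas : ∀ K : Set X, IsCompact K → μ K = ν (e '' K) := by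
    intro K hK
    have hm : MeasurableSet (e '' K) := (hK.image e.continuous).isClosed.measurableSet
    rw [← he.measure_preimage hm.nullMeasurableSet, e.injective.preimage_image]
  rw [hmeas A hA, hmeas B hB, hmeas S hS]
  apply h (e '' A) (e '' B) (e '' S) (hA.image e.continuous) (hAc.is_linear_image e.isLinear)
    (hAn.image e) (hB.image e.continuous) (hBc.is_linear_image e.isLinear) (hBn.image e)
    (hS.image e.continuous) (hSc.is_linear_image e.isLinear) a b ha hb
  rintro _ ⟨_, ⟨_, ⟨p, hp, rfl⟩, rfl⟩, _, ⟨_, ⟨q, hq, rfl⟩, rfl⟩, rfl⟩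
  refine ⟨a • p + b • q, hsub ⟨a • p, ⟨p, hp, rfl⟩, b • q, ⟨q, hq, rfl⟩, rfl⟩, ?_⟩
  simp

/-- The cone concentration function. -/
noncomputable def phi (t : ℝ) : ℝ := 3 * t - 2 * t * √t

theorem core [BorelSpace X] [SecondCountableTopology X] (ν : Measure X) [SigmaFinite ν]
    [IsFiniteMeasureOnCompacts ν] (hBM : HasBM2 ν) {T : Set (X × ℝ)} (hT : IsCompact T)
    (hTc : Convex ℝ T) {B : Set X} (hB : MeasurableSet B) :
    (ν.prod volume) (T ∩ B ×ˢ univ) ≤
      ENNReal.ofReal (phi ((ν (B ∩ Prod.fst '' T)).toReal / (ν (Prod.fst '' T)).toReal)) *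
        (ν.prod volume) T := by
  rcases T.eq_empty_or_nonempty with hemp | hTn
  · rw [hemp]
    simp
  set P : Set X := Prod.fst '' T with hPdef
  have hP : IsCompact P := hT.image continuous_fst
  have hLev0 : Lev T 0 = P := Lev_of_nonpos T le_rfl
  have hfin : ∀ r, ν (Lev T r) ≠ ⊤ := fun r => (Lev_isCompact hT r).measure_lt_top.ne
  have hPfin : ν P ≠ ⊤ := hP.measure_lt_top.ne
  have hvol : (ν.prod volume) T = ∫⁻ r in Ioi (0 : ℝ), ν (Lev T r) :=
    volume_eq_lintegral_Lev ν hT hTc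
  by_cases hP0 : ν P = 0
  · have h1 : (ν.prod volume) T = 0 := by
      rw [hvol, ← lintegral_zero (μ := volume.restrict (Ioi (0 : ℝ)))]
      apply lintegral_congr
      intro r
      exact measure_mono_null (Lev_subset_fst T r) hP0
    have h2 : (ν.prod volume) (T ∩ B ×ˢ univ) = 0 := measure_mono_null inter_subset_left h1
    rw [h2]
    exact zero_le
  set g : ℝ → ℝ := fun r => √(ν (Lev T r)).toReal with hg
  obtain ⟨F, hF0, hF⟩ := exists_maxChord hT hTn
  have hg_zero : ∀ r, F < r → g r = 0 := by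
    intro r hr
    have : Lev T r = ∅ := by
      rw [← not_nonempty_iff_eq_empty, hF]
      exact not_le.2 hr
    simp [hg, this]
  have hg_nonneg : ∀ r, 0 ≤ g r := fun r => Real.sqrt_nonneg _
  have hg_conc : ∀ r0 r1, 0 ≤ r0 → r0 ≤ F → 0 ≤ r1 → r1 ≤ F → ∀ a b, 0 ≤ a → 0 ≤ b →
      a + b = 1 → a * g r0 + b * g r1 ≤ g (a * r0 + b * r1) := by
    intro r0 r1 _ hr0F _ hr1F a b ha hb hab
    exact hBM (Lev T r0) (Lev T r1) (Lev T (a * r0 + b * r1)) (Lev_isCompact hT _)
      (Lev_convex hTc _) ((hF _).2 hr0F) (Lev_isCompact hT _) (Lev_convex hTc _) ((hF _).2 hr1F)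
      (Lev_isCompact hT _) (Lev_convex hTc _) a b ha hb (Lev_combo hTc ha hb hab r0 r1)
  have hg0 : g 0 = √(ν P).toReal := by simp only [hg]; rw [hLev0]
  have hPpos : 0 < (ν P).toReal := ENNReal.toReal_pos hP0 hPfin
  have hGpos : 0 < g 0 := by rw [hg0]; exact Real.sqrt_pos.2 hPpos
  set β : ℝ := √(ν (B ∩ P)).toReal with hβdef
  have hβ0 : 0 ≤ β := Real.sqrt_nonneg _
  have hBPle : ν (B ∩ P) ≤ ν P := measure_mono inter_subset_right
  have hBPfin : ν (B ∩ P) ≠ ⊤ := (hBPle.trans_lt hPfin.lt_top).ne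
  have hβ : β ≤ g 0 := by
    rw [hg0]
    exact Real.sqrt_le_sqrt (ENNReal.toReal_mono hPfin hBPle)
  obtain ⟨s, hs0, hs⟩ := cone_lemma g F hF0 hg_zero hg_nonneg hg_conc β hβ0 hβ hGpos
  have hgsq : ∀ r, ENNReal.ofReal (g r ^ 2) = ν (Lev T r) := by
    intro r
    simp only [hg]
    rw [Real.sq_sqrt ENNReal.toReal_nonneg, ENNReal.ofReal_toReal (hfin r)]
  simp_rw [hgsq] at hs
  have hβsq : ENNReal.ofReal (β ^ 2) = ν (B ∩ P) := by
    rw [hβdef, Real.sq_sqrt ENNReal.toReal_nonneg, ENNReal.ofReal_toReal hBPfin]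
  have hphi : β ^ 2 * (3 * g 0 - 2 * β) / g 0 ^ 3 = phi ((ν (B ∩ P)).toReal / (ν P).toReal) := by
    have e1 : (ν (B ∩ P)).toReal = β ^ 2 := by
      rw [hβdef, Real.sq_sqrt ENNReal.toReal_nonneg]
    have e2 : (ν P).toReal = g 0 ^ 2 := by
      rw [hg0, Real.sq_sqrt ENNReal.toReal_nonneg]
    have e3 : √(β ^ 2 / g 0 ^ 2) = β / g 0 := by
      rw [← div_pow, Real.sqrt_sq (div_nonneg hβ0 hGpos.le)]
    rw [e1, e2, phi, e3]
    field_simp
  rw [hphi] at hs
  -- the left side
  have hleft : (ν.prod volume) (T ∩ B ×ˢ univ) ≤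
      ENNReal.ofReal (s * β ^ 2) + ∫⁻ r in Ioi s, ν (Lev T r) := by
    rw [layer_cake ν hT hTc hB]
    have hdisj : Disjoint (Ioc (0 : ℝ) s) (Ioi s) := by
      rw [Set.disjoint_left]
      intro r hr1 hr2
      exact absurd hr1.2 (not_le.2 hr2)
    have hsplit := lintegral_union (μ := (volume : Measure ℝ))
      (f := fun r => ν (Lev T r ∩ B)) (A := Ioc (0 : ℝ) s) (B := Ioi s) measurableSet_Ioi hdisj
    rw [Ioc_union_Ioi_eq_Ioi hs0] at hsplit
    rw [hsplit]
    apply add_le_add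
    · calc ∫⁻ r in Ioc (0 : ℝ) s, ν (Lev T r ∩ B)
          ≤ ∫⁻ _r in Ioc (0 : ℝ) s, ν (B ∩ P) := by
            apply lintegral_mono
            intro r
            apply measure_mono
            rintro x ⟨hx1, hx2⟩
            exact ⟨hx2, Lev_subset_fst T r hx1⟩
        _ = ENNReal.ofReal (s * β ^ 2) := by
            rw [setLIntegral_const, Real.volume_Ioc, sub_zero, ← hβsq,
              ← ENNReal.ofReal_mul (sq_nonneg β), mul_comm]
    · apply lintegral_mono
      intro r
      exact measure_mono inter_subset_left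
  rw [hvol]
  exact hleft.trans hs

end Vale.Agent.H76
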