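import Mathlib

/-!
# Chord level sets of a convex body over a base space

For `T ⊆ X × ℝ` and a real `r`, `Lev T r` is the set of base points `x` whose fibre
`{z | (x, z) ∈ T}` contains two points `z, z'` with `z' - z ≥ r`. For compact convex `T` and
`r > 0` this is the set where the fibre has length at least `r`.
-/

open MeasureTheory Set
open scoped Pointwise ENNReal

set_option linter.unusedSectionVars false

namespace Vale.Agent.H76

variable {X : Type*} [NormedAddCommGroup X] [NormedSpace ℝ X]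

/-- Base points over which the fibre of `T` contains two points at signed distance at least `r`. -/
def Lev (T : Set (X × ℝ)) (r : ℝ) : Set X :=
  {x | ∃ z z' : ℝ, (x, z) ∈ T ∧ (x, z') ∈ T ∧ r ≤ z' - z}

theorem Lev_anti (T : Set (X × ℝ)) {r r' : ℝ} (h : r ≤ r') : Lev T r' ⊆ Lev T r := by
  rintro x ⟨z, z', hz, hz', hr⟩
  exact ⟨z, z', hz, hz', h.trans hr⟩

theorem Lev_of_nonpos (T : Set (X × ℝ)) {r : ℝ} (h : r ≤ 0) : Lev T r = Prod.fst '' T := by
  ext x
  constructor
  · rintro ⟨z, z', hz, hz', hr⟩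
    exact ⟨(x, z), hz, rfl⟩
  · rintro ⟨⟨x', z⟩, hz, rfl⟩
    exact ⟨z, z, hz, hz, by simpa using h⟩

theorem Lev_subset_fst (T : Set (X × ℝ)) (r : ℝ) : Lev T r ⊆ Prod.fst '' T := by
  rintro x ⟨z, z', hz, hz', hr⟩
  exact ⟨(x, z), hz, rfl⟩

theorem Lev_isCompact {T : Set (X × ℝ)} (hT : IsCompact T) (r : ℝ) : IsCompact (Lev T r) := by
  have h1 : IsCompact ((T ×ˢ T) ∩
      {pq : (X × ℝ) × (X × ℝ) | pq.1.1 = pq.2.1 ∧ r ≤ pq.2.2 - pq.1.2}) := by
    apply (hT.prod hT).inter_right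
    apply IsClosed.inter
    · exact isClosed_eq (continuous_fst.comp continuous_fst) (continuous_fst.comp continuous_snd)
    · exact isClosed_le continuous_const
        ((continuous_snd.comp continuous_snd).sub (continuous_snd.comp continuous_fst))
  have h2 : Lev T r = (fun pq : (X × ℝ) × (X × ℝ) => pq.1.1) '' ((T ×ˢ T) ∩
      {pq : (X × ℝ) × (X × ℝ) | pq.1.1 = pq.2.1 ∧ r ≤ pq.2.2 - pq.1.2}) := by
    ext x
    constructor
    · rintro ⟨z, z', hz, hz', hr⟩
      exact ⟨((x, z), (x, z')), ⟨⟨hz, hz'⟩, rfl, hr⟩, rfl⟩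
    · rintro ⟨⟨⟨x1, z⟩, ⟨x2, z'⟩⟩, ⟨⟨hz, hz'⟩, h12, hr⟩, rfl⟩
      simp only at h12 hr
      subst h12
      exact ⟨z, z', hz, hz', hr⟩
  rw [h2]
  exact h1.image (continuous_fst.comp continuous_fst)

theorem Lev_convex {T : Set (X × ℝ)} (hT : Convex ℝ T) (r : ℝ) : Convex ℝ (Lev T r) := by
  rintro x ⟨z, z', hz, hz', hr⟩ y ⟨w, w', hw, hw', hr'⟩ a b ha hb hab
  refine ⟨a * z + b * w, a * z' + b * w', ?_, ?_, ?_⟩
  · have := hT hz hw ha hb hab
    simpa using this
  · have := hT hz' hw' ha hb hab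
    simpa using this
  · have h1 : r = a * r + b * r := by rw [← add_mul, hab, one_mul]
    nlinarith [mul_le_mul_of_nonneg_left hr ha, mul_le_mul_of_nonneg_left hr' hb]

theorem Lev_add {A B S : Set (X × ℝ)} {a b : ℝ} (ha : 0 ≤ a) (hb : 0 ≤ b)
    (h : a • A + b • B ⊆ S) (r r' : ℝ) :
    a • Lev A r + b • Lev B r' ⊆ Lev S (a * r + b * r') := by
  rintro _ ⟨_, ⟨x, ⟨z, z', hz, hz', hr⟩, rfl⟩, _, ⟨y, ⟨w, w', hw, hw', hr'⟩, rfl⟩, rfl⟩
  refine ⟨a * z + b * w, a * z' + b * w', ?_, ?_, ?_⟩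
  · apply h
    exact ⟨a • (x, z), ⟨(x, z), hz, rfl⟩, b • (y, w), ⟨(y, w), hw, rfl⟩, by simp⟩
  · apply h
    exact ⟨a • (x, z'), ⟨(x, z'), hz', rfl⟩, b • (y, w'), ⟨(y, w'), hw', rfl⟩, by simp⟩
  · nlinarith [mul_le_mul_of_nonneg_left hr ha, mul_le_mul_of_nonneg_left hr' hb]

theorem Lev_combo {T : Set (X × ℝ)} (hT : Convex ℝ T) {a b : ℝ} (ha : 0 ≤ a) (hb : 0 ≤ b)
    (hab : a + b = 1) (r r' : ℝ) :
    a • Lev T r + b • Lev T r' ⊆ Lev T (a * r + b * r') :=
  Lev_add ha hb (convex_iff_pointwise_add_subset.1 hT ha hb hab) r r'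

/-- The fibre of a compact set over a base point is compact. -/
theorem section_isCompact {T : Set (X × ℝ)} (hT : IsCompact T) (x : X) :
    IsCompact (Prod.mk x ⁻¹' T) := by
  have h : Prod.mk x ⁻¹' T = Prod.snd '' (T ∩ Prod.fst ⁻¹' {x}) := by
    ext z
    constructor
    · intro hz
      exact ⟨(x, z), ⟨hz, rfl⟩, rfl⟩
    · rintro ⟨⟨x', z'⟩, ⟨hz, hx⟩, rfl⟩
      simp only [mem_preimage, mem_singleton_iff] at hx
      subst hx
      exact hz
  rw [h]
  exact (hT.inter_right (isClosed_singleton.preimage continuous_fst)).image continuous_snd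

theorem section_convex {T : Set (X × ℝ)} (hT : Convex ℝ T) (x : X) :
    Convex ℝ (Prod.mk x ⁻¹' T) := by
  intro z hz w hw a b ha hb hab
  have := hT hz hw ha hb hab
  simp only [mem_preimage]
  convert this using 1
  ext
  · simp [← add_smul, hab]
  · simp

theorem ofReal_le_volume_section_iff {T : Set (X × ℝ)} (hT : IsCompact T) (hTc : Convex ℝ T)
    (x : X) {r : ℝ} (hr : 0 < r) :
    ENNReal.ofReal r ≤ volume (Prod.mk x ⁻¹' T) ↔ x ∈ Lev T r := by
  constructor
  · intro h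
    have hcomp := section_isCompact hT x
    have hne : (Prod.mk x ⁻¹' T).Nonempty := by
      by_contra hemp
      rw [not_nonempty_iff_eq_empty] at hemp
      rw [hemp, measure_empty] at h
      exact absurd h (by simpa using hr)
    obtain ⟨z, hz, hzmin⟩ := hcomp.exists_isLeast hne
    obtain ⟨z', hz', hzmax⟩ := hcomp.exists_isGreatest hne
    have hsub : Prod.mk x ⁻¹' T ⊆ Icc z z' := fun w hw => ⟨hzmin hw, hzmax hw⟩
    have hle : ENNReal.ofReal r ≤ ENNReal.ofReal (z' - z) := by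
      calc ENNReal.ofReal r ≤ volume (Prod.mk x ⁻¹' T) := h
        _ ≤ volume (Icc z z') := measure_mono hsub
        _ = ENNReal.ofReal (z' - z) := Real.volume_Icc
    have hzz : 0 ≤ z' - z := sub_nonneg.2 (hzmin hz')
    exact ⟨z, z', hz, hz', (ENNReal.ofReal_le_ofReal_iff hzz).1 hle⟩
  · rintro ⟨z, z', hz, hz', hrz⟩
    have hconv := section_convex hTc x
    have hsub : Icc z z' ⊆ Prod.mk x ⁻¹' T := hconv.ordConnected.out hz hz'
    calc ENNReal.ofReal r ≤ ENNReal.ofReal (z' - z) := ENNReal.ofReal_le_ofReal hrz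
      _ = volume (Icc z z') := Real.volume_Icc.symm
      _ ≤ volume (Prod.mk x ⁻¹' T) := measure_mono hsub

/-- Layer-cake formula for the part of a compact convex set lying over a measurable base set. -/
theorem layer_cake [MeasurableSpace X] [BorelSpace X] [SecondCountableTopology X]
    (ν : Measure X) [SigmaFinite ν] {T : Set (X × ℝ)} (hT : IsCompact T) (hTc : Convex ℝ T)
    {B : Set X} (hB : MeasurableSet B) :
    (ν.prod volume) (T ∩ B ×ˢ univ) = ∫⁻ r in Ioi (0 : ℝ), ν (Lev T r ∩ B) := by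
  have hTm : MeasurableSet T := hT.isClosed.measurableSet
  have hm : MeasurableSet (T ∩ B ×ˢ (univ : Set ℝ)) := hTm.inter (hB.prod MeasurableSet.univ)
  rw [Measure.prod_apply hm]
  set f : X → ℝ := fun x => (volume (Prod.mk x ⁻¹' T)).toReal with hf
  have hfin : ∀ x, volume (Prod.mk x ⁻¹' T) ≠ ⊤ := fun x =>
    (section_isCompact hT x).measure_lt_top.ne
  have h1 : ∀ x, volume (Prod.mk x ⁻¹' (T ∩ B ×ˢ (univ : Set ℝ))) =
      B.indicator (fun x => ENNReal.ofReal (f x)) x := by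
    intro x
    by_cases hx : x ∈ B
    · rw [indicator_of_mem hx, hf]
      simp only
      rw [ENNReal.ofReal_toReal (hfin x)]
      congr 1
      ext z
      simp [hx]
    · rw [indicator_of_notMem hx]
      have : Prod.mk x ⁻¹' (T ∩ B ×ˢ (univ : Set ℝ)) = ∅ := by
        ext z
        simp [hx]
      rw [this, measure_empty]
  simp_rw [h1]
  rw [lintegral_indicator hB]
  have hfm : Measurable f := (measurable_measure_prodMk_left hTm).ennreal_toReal
  rw [lintegral_eq_lintegral_meas_le (ν.restrict B)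
    (Filter.Eventually.of_forall fun x => ENNReal.toReal_nonneg) hfm.aemeasurable]
  apply setLIntegral_congr_fun measurableSet_Ioi
  intro t ht
  have hset : {a : X | t ≤ f a} = Lev T t := by
    ext x
    rw [← ofReal_le_volume_section_iff hT hTc x ht]
    exact (ENNReal.ofReal_le_iff_le_toReal (hfin x)).symm
  show (ν.restrict B) {a : X | t ≤ f a} = ν (Lev T t ∩ B)
  rw [hset, Measure.restrict_apply (Lev_isCompact hT t).isClosed.measurableSet]

end Vale.Agent.H76
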