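import Vale.Agent.H76.Space

/-!
# Finitely many cylinders covering a convex body

For a covering of a convex body of Euclidean 3-space by `m` cylinders, the sum `s` of the relative
base areas satisfies `1 ≤ 3 (1 - c) s + m c ^ 3` for every `c ∈ [0, 1)`.
-/

open MeasureTheory Set Module
open scoped ENNReal

namespace Vale.Agent.H76

/-- Tangent line bound for the cone concentration function. -/
theorem phi_le_tangent {t c : ℝ} (ht : 0 ≤ t) (hc : 0 ≤ c) :
    phi t ≤ 3 * (1 - c) * t + c ^ 3 := by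
  obtain ⟨x, hx0, hx⟩ : ∃ x : ℝ, 0 ≤ x ∧ x ^ 2 = t := ⟨√t, Real.sqrt_nonneg _, Real.sq_sqrt ht⟩
  have hs : √t = x := by rw [← hx, Real.sqrt_sq hx0]
  rw [phi, hs, ← hx]
  nlinarith [mul_nonneg (sq_nonneg (x - c)) (by positivity : (0 : ℝ) ≤ 2 * x + c)]

/-- The covering inequality in the ambient space: relative base areas dominate numbers `t i`
whose cone concentration values sum to at least one. -/
theorem covering_sum_space (m : ℕ)
    (K : Set (EuclideanSpace ℝ (Fin 3))) (hKconv : Convex ℝ K) (hKcomp : IsCompact K)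
    (hKint : (interior K).Nonempty)
    (u : Fin m → EuclideanSpace ℝ (Fin 3)) (hu : ∀ i, ‖u i‖ = 1)
    (B : Fin m → Set (EuclideanSpace ℝ (Fin 3)))
    (hB : ∀ i, ∀ x ∈ B i, inner ℝ x (u i) = 0)
    (hcov : K ⊆ ⋃ i, {x | ∃ b ∈ B i, ∃ t : ℝ, x = b + t • u i}) :
    ∃ t : Fin m → ℝ, (∀ i, 0 ≤ t i) ∧
      (∀ i, ENNReal.ofReal (t i) ≤
        μHE[2] (B i) / μHE[2] ((fun x => x - inner ℝ x (u i) • u i) '' K)) ∧
      1 ≤ ∑ i, ENNReal.ofReal (phi (t i)) := by
  have hE : finrank ℝ (EuclideanSpace ℝ (Fin 3)) = 3 := by simp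
  have hcov' : K ⊆ ⋃ i, (Submodule.span ℝ {u i})ᗮ.orthogonalProjectionOnto ⁻¹'
      (Subtype.val ⁻¹' B i : Set ↥(Submodule.span ℝ {u i})ᗮ) := by
    intro x hx
    obtain ⟨i, hi⟩ := mem_iUnion.1 (hcov hx)
    exact mem_iUnion.2 ⟨i, proj_mem_of_cyl (u i) (hu i) (B i) (hB i) x hi⟩
  obtain ⟨t, ht0, htle, hsum⟩ := covering_sum hE hKcomp hKconv hKint u hu
    (fun i => (Subtype.val ⁻¹' B i : Set ↥(Submodule.span ℝ {u i})ᗮ)) hcov'
  refine ⟨t, ht0, ?_, hsum⟩
  intro i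
  rw [hausdorff_base hE (u i) (hu i) (B i) (hB i), hausdorff_shadow hE (u i) (hu i) K]
  exact htle i

/-- **Finitely many cylinders.** For `m` cylinders covering a convex body of Euclidean 3-space
and every `c ∈ [0, 1)`, the relative base areas sum to at least
`(1 - m c ^ 3) / (3 (1 - c))`. -/
theorem many_cylinders (m : ℕ)
    (K : Set (EuclideanSpace ℝ (Fin 3))) (hKconv : Convex ℝ K) (hKcomp : IsCompact K)
    (hKint : (interior K).Nonempty)
    (u : Fin m → EuclideanSpace ℝ (Fin 3)) (hu : ∀ i, ‖u i‖ = 1)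
    (B : Fin m → Set (EuclideanSpace ℝ (Fin 3)))
    (hB : ∀ i, ∀ x ∈ B i, inner ℝ x (u i) = 0)
    (hcov : K ⊆ ⋃ i, {x | ∃ b ∈ B i, ∃ t : ℝ, x = b + t • u i})
    (c : ℝ) (hc0 : 0 ≤ c) (hc1 : c < 1) :
    ENNReal.ofReal ((1 - m * c ^ 3) / (3 * (1 - c))) ≤
      ∑ i, μHE[2] (B i) / μHE[2] ((fun x => x - inner ℝ x (u i) • u i) '' K) := by
  obtain ⟨t, ht0, htle, hsum⟩ :=
    covering_sum_space m K hKconv hKcomp hKint u hu B hB hcov
  have hL0 : ∀ i, 0 ≤ 3 * (1 - c) * t i + c ^ 3 := by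
    intro i
    have h1 : 0 ≤ 3 * (1 - c) * t i := mul_nonneg (by linarith) (ht0 i)
    have h2 : 0 ≤ c ^ 3 := by positivity
    linarith
  have h1 : (1 : ℝ≥0∞) ≤ ENNReal.ofReal (∑ i, (3 * (1 - c) * t i + c ^ 3)) := by
    rw [ENNReal.ofReal_sum_of_nonneg fun i _ => hL0 i]
    exact hsum.trans (Finset.sum_le_sum fun i _ =>
      ENNReal.ofReal_le_ofReal (phi_le_tangent (ht0 i) hc0))
  have hsum0 : 0 ≤ ∑ i, (3 * (1 - c) * t i + c ^ 3) := Finset.sum_nonneg fun i _ => hL0 i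
  have h2 : (1 : ℝ) ≤ ∑ i, (3 * (1 - c) * t i + c ^ 3) := by
    rw [← ENNReal.ofReal_one] at h1
    exact (ENNReal.ofReal_le_ofReal_iff hsum0).1 h1
  have h3 : ∑ i, (3 * (1 - c) * t i + c ^ 3) = 3 * (1 - c) * ∑ i, t i + m * c ^ 3 := by
    rw [Finset.sum_add_distrib, ← Finset.mul_sum]
    simp
  rw [h3] at h2
  have h4 : (1 - m * c ^ 3) / (3 * (1 - c)) ≤ ∑ i, t i := by
    rw [div_le_iff₀ (by linarith)]
    linarith
  calc ENNReal.ofReal ((1 - m * c ^ 3) / (3 * (1 - c)))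
      ≤ ENNReal.ofReal (∑ i, t i) := ENNReal.ofReal_le_ofReal h4
    _ = ∑ i, ENNReal.ofReal (t i) := ENNReal.ofReal_sum_of_nonneg fun i _ => ht0 i
    _ ≤ _ := Finset.sum_le_sum fun i _ => htle i

/-- Explicit consequence: the sum of the relative base areas is at least
`1/3 + 2 / (9 √(3 m))`. -/
theorem many_cylinders_explicit (m : ℕ)
    (K : Set (EuclideanSpace ℝ (Fin 3))) (hKconv : Convex ℝ K) (hKcomp : IsCompact K)
    (hKint : (interior K).Nonempty)
    (u : Fin m → EuclideanSpace ℝ (Fin 3)) (hu : ∀ i, ‖u i‖ = 1)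
    (B : Fin m → Set (EuclideanSpace ℝ (Fin 3)))
    (hB : ∀ i, ∀ x ∈ B i, inner ℝ x (u i) = 0)
    (hcov : K ⊆ ⋃ i, {x | ∃ b ∈ B i, ∃ t : ℝ, x = b + t • u i}) :
    ENNReal.ofReal (1 / 3 + 2 / (9 * √(3 * m))) ≤
      ∑ i, μHE[2] (B i) / μHE[2] ((fun x => x - inner ℝ x (u i) • u i) '' K) := by
  have hm : 0 < m := by
    rcases Nat.eq_zero_or_pos m with rfl | h
    · exfalso
      obtain ⟨x, hx⟩ := hKint
      have := hcov (interior_subset hx)
      simp at this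
    · exact h
  have hm' : (1 : ℝ) ≤ m := by exact_mod_cast hm
  set r : ℝ := √(3 * m) with hr
  have hr2 : r ^ 2 = 3 * m := Real.sq_sqrt (by positivity)
  have hr1 : 1 < r := by
    rw [hr, Real.lt_sqrt (by norm_num)]
    linarith
  have hrpos : 0 < r := by linarith
  have key := many_cylinders m K hKconv hKcomp hKint u hu B hB hcov (1 / r)
    (by positivity) (by rw [div_lt_one hrpos]; exact hr1)
  refine le_trans (ENNReal.ofReal_le_ofReal ?_) key
  have hm3 : (m : ℝ) = r ^ 2 / 3 := by rw [hr2]; ring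
  rw [hm3]
  have h1 : (1 - r ^ 2 / 3 * (1 / r) ^ 3) / (3 * (1 - 1 / r)) = (3 * r - 1) / (9 * (r - 1)) := by
    field_simp
    ring
  rw [h1, le_div_iff₀ (by linarith)]
  have h2 : (1 / 3 + 2 / (9 * r)) * (9 * (r - 1)) = 3 * r - 1 - 2 / r := by
    field_simp
    ring
  rw [h2]
  have : 0 < 2 / r := by positivity
  linarith

/-- From relative to absolute base areas: if `A` is at most every shadow area, then a lower bound
`q` for the sum of the relative base areas gives the lower bound `q * A` for the sum of the base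
areas. -/
theorem abs_of_rel {ι : Type*} (I : Finset ι) (b S : ι → ℝ≥0∞) (A q : ℝ≥0∞)
    (hA : ∀ i ∈ I, A ≤ S i) (hq : q ≤ ∑ i ∈ I, b i / S i) : q * A ≤ ∑ i ∈ I, b i := by
  calc q * A ≤ (∑ i ∈ I, b i / S i) * A := mul_le_mul' hq le_rfl
    _ = ∑ i ∈ I, b i / S i * A := Finset.sum_mul _ _ _
    _ ≤ ∑ i ∈ I, b i := by
        apply Finset.sum_le_sum
        intro i hi
        calc b i / S i * A ≤ b i / S i * S i := mul_le_mul' le_rfl (hA i hi)
          _ = S i * (b i / S i) := mul_comm _ _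
          _ ≤ b i := ENNReal.mul_div_le

end Vale.Agent.H76
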