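import Vale.Agent.H76.P230Main

/-!
P230 candidate B for a normal vector of arbitrary signs (helper76, optional extension):
the unit cube cut by ANY half-space that contains its centre is covered by a lattice of
determinant `± 1/(2n)`.  Reduction to nonnegative `a` by the reflections `y_i ↦ 1 - y_i`.
-/

namespace Vale.Agent.H76.P230General

open Vale.Agent.H76.P230Side Vale.Agent.H76.P230Main MeasureTheory

/-- Interior of the cut cube, arbitrary signs. -/
theorem cut_interior_nonempty_general {n : ℕ} (a : Fin n → ℝ) (t : ℝ)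
    (ht : (∑ i, a i) / 2 ≤ t) :
    (interior {y : Fin n → ℝ | (∀ i, 0 ≤ y i ∧ y i ≤ 1) ∧ ∑ i, a i * y i ≤ t}).Nonempty := by
  let U : Set (Fin n → ℝ) :=
    Set.pi Set.univ fun i => if a i < 0 then Set.Ioo (1 / 2 : ℝ) 1 else Set.Ioo (0 : ℝ) (1 / 2)
  have hU : IsOpen U := by
    refine isOpen_set_pi Set.finite_univ fun i _ => ?_
    split_ifs <;> exact isOpen_Ioo
  have hsub : U ⊆ {y : Fin n → ℝ | (∀ i, 0 ≤ y i ∧ y i ≤ 1) ∧ ∑ i, a i * y i ≤ t} := by
    intro y hy
    have hy' : ∀ i, (a i < 0 → 1 / 2 < y i ∧ y i < 1) ∧ (¬ a i < 0 → 0 < y i ∧ y i < 1 / 2) := by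
      intro i
      have h := hy i (Set.mem_univ i)
      constructor
      · intro hi
        simpa [hi] using h
      · intro hi
        simpa [hi] using h
    refine ⟨fun i => ?_, ?_⟩
    · by_cases hi : a i < 0
      · have := (hy' i).1 hi
        exact ⟨by linarith, by linarith⟩
      · have := (hy' i).2 hi
        exact ⟨by linarith, by linarith⟩
    · calc ∑ i, a i * y i ≤ ∑ i, a i * (1 / 2) := by
            refine Finset.sum_le_sum fun i _ => ?_
            by_cases hi : a i < 0
            · have := (hy' i).1 hi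
              nlinarith
            · have := (hy' i).2 hi
              have h0 : 0 ≤ a i := not_lt.mp hi
              nlinarith
        _ = (∑ i, a i) / 2 := by rw [← Finset.sum_mul]; ring
        _ ≤ t := ht
  refine ⟨fun i => if a i < 0 then 3 / 4 else 1 / 4, interior_maximal hsub hU ?_⟩
  intro i _
  by_cases hi : a i < 0
  · simp only [hi, if_true]
    constructor <;> norm_num
  · simp only [hi, if_false]
    constructor <;> norm_num

/-- The cube cut by any half-space containing its centre: lattice covering with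
`|det| = 1/(2n)`, volume at most `1`, a convex body. -/
theorem cut_cube_lattice_covering_general (n : ℕ) (hn : 0 < n) (a : Fin n → ℝ) (t : ℝ)
    (ha : ∃ i, a i ≠ 0) (ht : (∑ i, a i) / 2 ≤ t) :
    ∃ B : Matrix (Fin n) (Fin n) ℝ, |B.det| = 1 / (2 * (n : ℝ)) ∧
      (∀ x : Fin n → ℝ, ∃ z : Fin n → ℤ,
        x - B.mulVec (fun i => (z i : ℝ))
          ∈ {y : Fin n → ℝ | (∀ i, 0 ≤ y i ∧ y i ≤ 1) ∧ ∑ i, a i * y i ≤ t}) ∧
      volume {y : Fin n → ℝ | (∀ i, 0 ≤ y i ∧ y i ≤ 1) ∧ ∑ i, a i * y i ≤ t} ≤ 1 ∧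
      Convex ℝ {y : Fin n → ℝ | (∀ i, 0 ≤ y i ∧ y i ≤ 1) ∧ ∑ i, a i * y i ≤ t} ∧
      IsCompact {y : Fin n → ℝ | (∀ i, 0 ≤ y i ∧ y i ≤ 1) ∧ ∑ i, a i * y i ≤ t} ∧
      (interior {y : Fin n → ℝ | (∀ i, 0 ≤ y i ∧ y i ≤ 1) ∧ ∑ i, a i * y i ≤ t}).Nonempty := by
  classical
  -- signs, reflected data
  set ε : Fin n → ℝ := fun i => if a i < 0 then -1 else 1 with hε
  have hεsq : ∀ i, ε i * ε i = 1 := by
    intro i
    simp only [hε]
    split_ifs <;> norm_num
  have hεabs : ∀ i, ε i * a i = |a i| := by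
    intro i
    simp only [hε]
    split_ifs with h
    · rw [abs_of_neg h]; ring
    · rw [abs_of_nonneg (not_lt.mp h)]; ring
  set B0 : Matrix (Fin n) (Fin n) ℝ :=
    Matrix.updateCol (1 : Matrix (Fin n) (Fin n) ℝ) ⟨0, hn⟩ (fun _ => 1 / (2 * (n : ℝ))) with hB0
  have hn' : (0 : ℝ) < n := Nat.cast_pos.mpr hn
  refine ⟨Matrix.diagonal ε * B0, ?_, ?_, cut_volume_le_one a t, cut_convex a t,
    cut_isCompact a t, cut_interior_nonempty_general a t ht⟩
  · rw [Matrix.det_mul, Matrix.det_diagonal, hB0, det_updateCol_one_const, abs_mul]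
    have h1 : |∏ i, ε i| = 1 := by
      rw [Finset.abs_prod]
      refine Finset.prod_eq_one fun i _ => ?_
      simp only [hε]
      split_ifs <;> norm_num
    rw [h1, one_mul, abs_of_pos (by positivity)]
  · intro x
    -- reflected point and reflected data
    set v : Fin n → ℝ := fun i => if a i < 0 then 1 else 0 with hv
    set x' : Fin n → ℝ := fun i => ε i * x i + v i with hx'
    set a' : Fin n → ℝ := fun i => |a i| with ha'
    set t' : ℝ := t + ∑ i, a' i * v i with ht'
    have hva : ∀ i, a' i * v i = (a' i - a i) / 2 := by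
      intro i
      simp only [ha', hv]
      split_ifs with h
      · rw [abs_of_neg h]; ring
      · rw [abs_of_nonneg (not_lt.mp h)]; ring
    have ha'nn : ∀ i, 0 ≤ a' i := fun i => abs_nonneg _
    have hA' : 0 < ∑ i, a' i := by
      obtain ⟨i0, hi0⟩ := ha
      exact Finset.sum_pos' (fun i _ => ha'nn i) ⟨i0, Finset.mem_univ _, abs_pos.mpr hi0⟩
    have hcentre : (∑ i, a' i) / 2 ≤ t' := by
      have h1 : ∑ i, a' i * v i = (∑ i, a' i - ∑ i, a i) / 2 := by
        rw [Finset.sum_congr rfl fun i _ => hva i, ← Finset.sum_div, Finset.sum_sub_distrib]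
      rw [ht', h1]
      linarith
    obtain ⟨z, hz⟩ := covering hn ⟨0, hn⟩ a' t' ha'nn hA' hcentre x'
    refine ⟨z, ?_⟩
    set w : Fin n → ℝ := B0.mulVec (fun i => (z i : ℝ)) with hw
    have hmul : (Matrix.diagonal ε * B0).mulVec (fun i => (z i : ℝ)) = fun i => ε i * w i := by
      rw [← Matrix.mulVec_mulVec]
      funext i
      rw [Matrix.mulVec_diagonal]
    rw [hmul]
    have hz1 : ∀ i, 0 ≤ x' i - w i ∧ x' i - w i ≤ 1 := fun i => hz.1 i
    have hz2 : ∑ i, a' i * (x' i - w i) ≤ t' := hz.2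
    -- the reflected identity, coordinatewise
    have hrefl : ∀ i, x i - ε i * w i = ε i * (x' i - w i - v i) := by
      intro i
      simp only [hx']
      have := hεsq i
      linear_combination (-(x i)) * this
    refine ⟨fun i => ?_, ?_⟩
    · have h := hz1 i
      show 0 ≤ x i - ε i * w i ∧ x i - ε i * w i ≤ 1
      rw [hrefl i]
      simp only [hε, hv]
      split_ifs with hi
      · constructor <;> linarith [h.1, h.2]
      · constructor <;> linarith [h.1, h.2]
    · have hterm : ∀ i, a i * (x - fun i => ε i * w i) i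
          = a' i * (x' i - w i) - a' i * v i := by
        intro i
        show a i * (x i - ε i * w i) = a' i * (x' i - w i) - a' i * v i
        rw [hrefl i]
        have h1 : a i * (ε i * (x' i - w i - v i)) = (ε i * a i) * (x' i - w i - v i) := by ring
        rw [h1, hεabs i]
        ring
      rw [Finset.sum_congr rfl fun i _ => hterm i, Finset.sum_sub_distrib]
      rw [ht'] at hz2
      linarith

end Vale.Agent.H76.P230General
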