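import Vale.Agent.H76.P230Side

/-!
Backup (helper76) of the covering step of P230 candidate B (helper62):
the unit cube cut by a half-space that contains its centre is covered by the
translates along the lattice `ℤ^n + ℤ (1/(2n))(1,…,1)`.
-/

namespace Vale.Agent.H76.P230Main

open Vale.Agent.H76.P230Side MeasureTheory

/-- `fract (u + d) ≤ fract u + d` for `d ≥ 0`. -/
theorem fract_add_le_of_nonneg (u d : ℝ) (hd : 0 ≤ d) :
    Int.fract (u + d) ≤ Int.fract u + d := by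
  have h : (⌊u⌋ : ℝ) ≤ (⌊u + d⌋ : ℝ) := by
    exact_mod_cast Int.floor_le_floor (by linarith : u ≤ u + d)
  unfold Int.fract
  linarith

/-- `fract u + fract (-u) ≤ 1`. -/
theorem fract_add_fract_neg_le (u : ℝ) : Int.fract u + Int.fract (-u) ≤ 1 := by
  by_cases h : Int.fract u = 0
  · rw [h, Int.fract_neg_eq_zero.mpr h]
    norm_num
  · rw [Int.fract_neg h]
    linarith

/-- The double sum: `∑_{i,k} a_i a_k fract (x_k - x_i) ≤ (A² - ∑ a_i²)/2`. -/
theorem double_sum_le {n : ℕ} (a x : Fin n → ℝ) (ha : ∀ i, 0 ≤ a i) :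
    ∑ i, ∑ k, a i * a k * Int.fract (x k - x i)
      ≤ ((∑ i, a i) ^ 2 - ∑ i, a i ^ 2) / 2 := by
  classical
  have hswap : ∑ i, ∑ k, a i * a k * Int.fract (x k - x i)
      = ∑ i, ∑ k, a i * a k * Int.fract (x i - x k) := by
    rw [Finset.sum_comm]
    exact Finset.sum_congr rfl fun i _ => Finset.sum_congr rfl fun k _ => by ring
  have hsum : ∑ i, ∑ k, a i * a k * Int.fract (x k - x i)
      + ∑ i, ∑ k, a i * a k * Int.fract (x k - x i)
      ≤ ∑ i, ∑ k, a i * a k * (if i = k then 0 else 1) := by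
    nth_rewrite 2 [hswap]
    rw [← Finset.sum_add_distrib]
    refine Finset.sum_le_sum fun i _ => ?_
    rw [← Finset.sum_add_distrib]
    refine Finset.sum_le_sum fun k _ => ?_
    rw [← mul_add]
    have hnn : 0 ≤ a i * a k := mul_nonneg (ha i) (ha k)
    by_cases hik : i = k
    · subst hik
      simp
    · rw [if_neg hik]
      have h1 : Int.fract (x k - x i) + Int.fract (x i - x k) ≤ 1 := by
        have := fract_add_fract_neg_le (x k - x i)
        rwa [neg_sub] at this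
      exact mul_le_mul_of_nonneg_left h1 hnn
  have hrhs : ∑ i, ∑ k, a i * a k * (if i = k then (0 : ℝ) else 1)
      = (∑ i, a i) ^ 2 - ∑ i, a i ^ 2 := by
    have h1 : ∀ i, ∑ k, a i * a k * (if i = k then (0 : ℝ) else 1)
        = a i * (∑ k, a k) - a i ^ 2 := by
      intro i
      have h2 : ∀ k, a i * a k * (if i = k then (0 : ℝ) else 1)
          = a i * a k - (if i = k then a i * a k else 0) := by
        intro k
        split_ifs <;> ring
      rw [Finset.sum_congr rfl fun k _ => h2 k, Finset.sum_sub_distrib, ← Finset.mul_sum,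
        Finset.sum_ite_eq, if_pos (Finset.mem_univ i)]
      ring
    rw [Finset.sum_congr rfl fun i _ => h1 i, Finset.sum_sub_distrib, ← Finset.sum_mul]
    ring
  rw [hrhs] at hsum
  linarith

/-- The analytic half: some grid shift `j/(2n)` along the diagonal brings the point of the
torus into the half cube. -/
theorem exists_shift {n : ℕ} (hn : 0 < n) (a x : Fin n → ℝ) (ha : ∀ i, 0 ≤ a i)
    (hA : 0 < ∑ i, a i) :
    ∃ j : ℤ, ∑ i, a i * Int.fract (x i - (j : ℝ) * (1 / (2 * (n : ℝ)))) ≤ (∑ i, a i) / 2 := by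
  classical
  have hn' : (0 : ℝ) < n := Nat.cast_pos.mpr hn
  set A : ℝ := ∑ i, a i with hAdef
  set Q : ℝ := ∑ i, a i ^ 2 with hQdef
  -- Cauchy-Schwarz
  have hCS : A ^ 2 ≤ n * Q := by
    have := sq_sum_le_card_mul_sum_sq (s := (Finset.univ : Finset (Fin n))) (f := a)
    simpa [hAdef, hQdef] using this
  set c : ℝ := (A ^ 2 - Q) / (2 * A) with hcdef
  -- the good index
  have hgood : ∃ i0, ∑ i, a i * Int.fract (x i - Int.fract (x i0)) ≤ c := by
    by_contra hcon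
    push Not at hcon
    obtain ⟨i1, hi1⟩ : ∃ i1, 0 < a i1 := by
      by_contra h
      push Not at h
      have : ∑ i, a i ≤ 0 := Finset.sum_nonpos fun i _ => h i
      linarith
    have hlt : ∑ k, a k * c < ∑ k, a k * ∑ i, a i * Int.fract (x i - Int.fract (x k)) :=
      Finset.sum_lt_sum (fun k _ => mul_le_mul_of_nonneg_left (hcon k).le (ha k))
        ⟨i1, Finset.mem_univ _, mul_lt_mul_of_pos_left (hcon i1) hi1⟩
    have hAc : ∑ k, a k * c = (A ^ 2 - Q) / 2 := by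
      rw [← Finset.sum_mul, ← hAdef, hcdef]
      field_simp
    have hdbl : ∑ k, a k * ∑ i, a i * Int.fract (x i - Int.fract (x k))
        = ∑ k, ∑ i, a k * a i * Int.fract (x i - x k) := by
      refine Finset.sum_congr rfl fun k _ => ?_
      rw [Finset.mul_sum]
      refine Finset.sum_congr rfl fun i _ => ?_
      have : x i - Int.fract (x k) = (x i - x k) + ((⌊x k⌋ : ℤ) : ℝ) := by
        unfold Int.fract
        ring
      rw [this, Int.fract_add_intCast]
      ring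
    have := double_sum_le a x ha
    rw [hdbl, hAc] at hlt
    linarith
  obtain ⟨i0, hi0⟩ := hgood
  set s : ℝ := Int.fract (x i0) with hsdef
  refine ⟨⌊2 * (n : ℝ) * s⌋, ?_⟩
  set j : ℤ := ⌊2 * (n : ℝ) * s⌋ with hjdef
  have hj1 : (j : ℝ) ≤ 2 * (n : ℝ) * s := Int.floor_le _
  have hj2 : 2 * (n : ℝ) * s < (j : ℝ) + 1 := Int.lt_floor_add_one _
  set d : ℝ := s - (j : ℝ) * (1 / (2 * (n : ℝ))) with hddef
  have hd0 : 0 ≤ d := by
    rw [hddef, mul_one_div, sub_nonneg, div_le_iff₀ (by positivity)]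
    linarith
  have hd1 : d ≤ 1 / (2 * (n : ℝ)) := by
    rw [hddef, mul_one_div, sub_le_iff_le_add, ← add_div, le_div_iff₀ (by positivity)]
    linarith
  have hterm : ∀ i, a i * Int.fract (x i - (j : ℝ) * (1 / (2 * (n : ℝ))))
      ≤ a i * Int.fract (x i - s) + a i * d := by
    intro i
    have h1 : x i - (j : ℝ) * (1 / (2 * (n : ℝ))) = (x i - s) + d := by
      rw [hddef]; ring
    rw [h1, ← mul_add]
    exact mul_le_mul_of_nonneg_left (fract_add_le_of_nonneg _ _ hd0) (ha i)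
  have hsum : ∑ i, a i * Int.fract (x i - (j : ℝ) * (1 / (2 * (n : ℝ))))
      ≤ c + A * d := by
    calc ∑ i, a i * Int.fract (x i - (j : ℝ) * (1 / (2 * (n : ℝ))))
        ≤ ∑ i, (a i * Int.fract (x i - s) + a i * d) := Finset.sum_le_sum fun i _ => hterm i
      _ = ∑ i, a i * Int.fract (x i - s) + A * d := by
          rw [Finset.sum_add_distrib, ← Finset.sum_mul]
      _ ≤ c + A * d := by linarith
  have hAd : A * d ≤ A * (1 / (2 * (n : ℝ))) := mul_le_mul_of_nonneg_left hd1 hA.le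
  have hfin : c + A * (1 / (2 * (n : ℝ))) ≤ A / 2 := by
    rw [hcdef]
    have h1 : (A ^ 2 - Q) / (2 * A) = A / 2 - Q / (2 * A) := by
      field_simp
    have h2 : A * (1 / (2 * (n : ℝ))) ≤ Q / (2 * A) := by
      rw [mul_one_div, div_le_div_iff₀ (by positivity) (by positivity)]
      nlinarith
    rw [h1]
    linarith
  linarith

/-- The covering step: every point is a lattice vector plus a point of the cut cube. -/
theorem covering {n : ℕ} (hn : 0 < n) (c : Fin n) (a : Fin n → ℝ) (t : ℝ)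
    (ha : ∀ i, 0 ≤ a i) (hA : 0 < ∑ i, a i) (ht : (∑ i, a i) / 2 ≤ t) (x : Fin n → ℝ) :
    ∃ z : Fin n → ℤ,
      x - (Matrix.updateCol (1 : Matrix (Fin n) (Fin n) ℝ) c
          (fun _ => 1 / (2 * (n : ℝ)))).mulVec (fun i => (z i : ℝ))
        ∈ {y : Fin n → ℝ | (∀ i, 0 ≤ y i ∧ y i ≤ 1) ∧ ∑ i, a i * y i ≤ t} := by
  obtain ⟨j, hj⟩ := exists_shift hn a x ha hA
  obtain ⟨z, hz⟩ := exists_int_mulVec_eq hn c
    (fun i => ⌊x i - (j : ℝ) * (1 / (2 * (n : ℝ)))⌋) j
  refine ⟨z, ?_⟩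
  rw [hz]
  have hy : ∀ i, (x - fun i => ((⌊x i - (j : ℝ) * (1 / (2 * (n : ℝ)))⌋ : ℤ) : ℝ)
      + (j : ℝ) * (1 / (2 * (n : ℝ)))) i
      = Int.fract (x i - (j : ℝ) * (1 / (2 * (n : ℝ)))) := by
    intro i
    simp only [Pi.sub_apply]
    unfold Int.fract
    ring
  refine ⟨fun i => ?_, ?_⟩
  · rw [hy i]
    exact ⟨Int.fract_nonneg _, (Int.fract_lt_one _).le⟩
  · rw [Finset.sum_congr rfl fun i _ => by rw [hy i]]
    linarith

/-- Backup of the full statement of P230 candidate B. -/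
theorem cut_cube_lattice_covering (n : ℕ) (hn : 0 < n) (a : Fin n → ℝ) (t : ℝ)
    (ha : ∀ i, 0 ≤ a i) (hA : 0 < ∑ i, a i) (ht : (∑ i, a i) / 2 ≤ t) :
    ∃ B : Matrix (Fin n) (Fin n) ℝ, B.det = 1 / (2 * (n : ℝ)) ∧
      (∀ x : Fin n → ℝ, ∃ z : Fin n → ℤ,
        x - B.mulVec (fun i => (z i : ℝ))
          ∈ {y : Fin n → ℝ | (∀ i, 0 ≤ y i ∧ y i ≤ 1) ∧ ∑ i, a i * y i ≤ t}) ∧
      volume {y : Fin n → ℝ | (∀ i, 0 ≤ y i ∧ y i ≤ 1) ∧ ∑ i, a i * y i ≤ t} ≤ 1 ∧
      Convex ℝ {y : Fin n → ℝ | (∀ i, 0 ≤ y i ∧ y i ≤ 1) ∧ ∑ i, a i * y i ≤ t} ∧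
      IsCompact {y : Fin n → ℝ | (∀ i, 0 ≤ y i ∧ y i ≤ 1) ∧ ∑ i, a i * y i ≤ t} ∧
      (interior {y : Fin n → ℝ | (∀ i, 0 ≤ y i ∧ y i ≤ 1) ∧ ∑ i, a i * y i ≤ t}).Nonempty :=
  ⟨Matrix.updateCol (1 : Matrix (Fin n) (Fin n) ℝ) ⟨0, hn⟩ (fun _ => 1 / (2 * (n : ℝ))),
    det_updateCol_one_const _, covering hn _ a t ha hA ht, cut_volume_le_one a t,
    cut_convex a t, cut_isCompact a t, cut_interior_nonempty a t ha ht⟩

end Vale.Agent.H76.P230Main
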