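import Mathlib

/-!
Side lemmas for P230 candidate B (helper62): the unit cube cut by a half-space,
`{y | (∀ i, 0 ≤ y i ∧ y i ≤ 1) ∧ ∑ i, a i * y i ≤ t}`, written out in every statement
(no definitions), and the lattice `ℤ^n + ℤ w`, `w = (1/(2n))(1,…,1)`, as the image of
`ℤ^n` under the identity matrix with one fixed column replaced by `w`.
-/

namespace Vale.Agent.H76.P230Side

open MeasureTheory

theorem cut_convex {n : ℕ} (a : Fin n → ℝ) (t : ℝ) :
    Convex ℝ {y : Fin n → ℝ | (∀ i, 0 ≤ y i ∧ y i ≤ 1) ∧ ∑ i, a i * y i ≤ t} := by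
  intro x hx y hy u v hu hv huv
  refine ⟨fun i => ⟨?_, ?_⟩, ?_⟩
  · have h1 := (hx.1 i).1
    have h2 := (hy.1 i).1
    simp only [Pi.add_apply, Pi.smul_apply, smul_eq_mul]
    positivity
  · have h1 := (hx.1 i).2
    have h2 := (hy.1 i).2
    simp only [Pi.add_apply, Pi.smul_apply, smul_eq_mul]
    nlinarith
  · have h1 := hx.2
    have h2 := hy.2
    simp only [Pi.add_apply, Pi.smul_apply, smul_eq_mul]
    have e : ∑ i, a i * (u * x i + v * y i)
        = u * ∑ i, a i * x i + v * ∑ i, a i * y i := by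
      rw [Finset.mul_sum, Finset.mul_sum, ← Finset.sum_add_distrib]
      exact Finset.sum_congr rfl fun i _ => by ring
    rw [e]
    calc u * ∑ i, a i * x i + v * ∑ i, a i * y i ≤ u * t + v * t :=
          add_le_add (mul_le_mul_of_nonneg_left h1 hu) (mul_le_mul_of_nonneg_left h2 hv)
      _ = t := by rw [← add_mul, huv, one_mul]

theorem cut_subset_Icc {n : ℕ} (a : Fin n → ℝ) (t : ℝ) :
    {y : Fin n → ℝ | (∀ i, 0 ≤ y i ∧ y i ≤ 1) ∧ ∑ i, a i * y i ≤ t}
      ⊆ Set.Icc (0 : Fin n → ℝ) 1 := by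
  intro y hy
  exact ⟨fun i => (hy.1 i).1, fun i => (hy.1 i).2⟩

theorem cut_isClosed {n : ℕ} (a : Fin n → ℝ) (t : ℝ) :
    IsClosed {y : Fin n → ℝ | (∀ i, 0 ≤ y i ∧ y i ≤ 1) ∧ ∑ i, a i * y i ≤ t} := by
  have e : {y : Fin n → ℝ | (∀ i, 0 ≤ y i ∧ y i ≤ 1) ∧ ∑ i, a i * y i ≤ t}
      = Set.Icc (0 : Fin n → ℝ) 1 ∩ {y | ∑ i, a i * y i ≤ t} := by
    ext y
    constructor
    · intro hy
      exact ⟨cut_subset_Icc a t hy, hy.2⟩
    · rintro ⟨h1, h2⟩
      exact ⟨fun i => ⟨h1.1 i, h1.2 i⟩, h2⟩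
  rw [e]
  refine isClosed_Icc.inter ?_
  exact isClosed_le
    (continuous_finsetSum _ fun i _ => continuous_const.mul (continuous_apply i))
    continuous_const

theorem cut_isCompact {n : ℕ} (a : Fin n → ℝ) (t : ℝ) :
    IsCompact {y : Fin n → ℝ | (∀ i, 0 ≤ y i ∧ y i ≤ 1) ∧ ∑ i, a i * y i ≤ t} :=
  (isCompact_Icc (a := (0 : Fin n → ℝ)) (b := 1)).of_isClosed_subset
    (cut_isClosed a t) (cut_subset_Icc a t)

theorem cut_volume_le_one {n : ℕ} (a : Fin n → ℝ) (t : ℝ) :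
    volume {y : Fin n → ℝ | (∀ i, 0 ≤ y i ∧ y i ≤ 1) ∧ ∑ i, a i * y i ≤ t} ≤ 1 := by
  calc volume {y : Fin n → ℝ | (∀ i, 0 ≤ y i ∧ y i ≤ 1) ∧ ∑ i, a i * y i ≤ t}
      ≤ volume (Set.Icc (0 : Fin n → ℝ) 1) := measure_mono (cut_subset_Icc a t)
    _ = 1 := by
        rw [Real.volume_Icc_pi]
        simp

theorem cut_interior_nonempty {n : ℕ} (a : Fin n → ℝ) (t : ℝ)
    (ha : ∀ i, 0 ≤ a i) (ht : (∑ i, a i) / 2 ≤ t) :
    (interior {y : Fin n → ℝ | (∀ i, 0 ≤ y i ∧ y i ≤ 1) ∧ ∑ i, a i * y i ≤ t}).Nonempty := by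
  let U : Set (Fin n → ℝ) := Set.pi Set.univ fun _ => Set.Ioo (0 : ℝ) (1 / 2)
  have hU : IsOpen U := isOpen_set_pi Set.finite_univ fun _ _ => isOpen_Ioo
  have hsub : U ⊆ {y : Fin n → ℝ | (∀ i, 0 ≤ y i ∧ y i ≤ 1) ∧ ∑ i, a i * y i ≤ t} := by
    intro y hy
    have hy' : ∀ i, 0 < y i ∧ y i < 1 / 2 := fun i => hy i (Set.mem_univ i)
    refine ⟨fun i => ⟨(hy' i).1.le, by linarith [(hy' i).2]⟩, ?_⟩
    calc ∑ i, a i * y i ≤ ∑ i, a i * (1 / 2) :=
          Finset.sum_le_sum fun i _ => mul_le_mul_of_nonneg_left (hy' i).2.le (ha i)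
      _ = (∑ i, a i) / 2 := by rw [← Finset.sum_mul]; ring
      _ ≤ t := ht
  refine ⟨fun _ => 1 / 4, interior_maximal hsub hU ?_⟩
  intro i _
  constructor <;> norm_num

/-- The determinant of the identity matrix with column `c` replaced by `w` is `w c`. -/
theorem det_updateCol_one {n : ℕ} (c : Fin n) (w : Fin n → ℝ) :
    (Matrix.updateCol (1 : Matrix (Fin n) (Fin n) ℝ) c w).det = w c := by
  rw [← Matrix.cramer_apply, Matrix.cramer_one]
  rfl

theorem det_updateCol_one_const {n : ℕ} (c : Fin n) :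
    (Matrix.updateCol (1 : Matrix (Fin n) (Fin n) ℝ) c
      (fun _ => 1 / (2 * (n : ℝ)))).det = 1 / (2 * (n : ℝ)) :=
  det_updateCol_one c _

/-- `B v`, for `B` the identity with column `c` replaced by `w`. -/
theorem updateCol_one_mulVec {n : ℕ} (c : Fin n) (w v : Fin n → ℝ) (i : Fin n) :
    (Matrix.updateCol (1 : Matrix (Fin n) (Fin n) ℝ) c w).mulVec v i
      = (if i = c then 0 else v i) + w i * v c := by
  classical
  rw [Matrix.mulVec, dotProduct, ← Finset.add_sum_erase _ _ (Finset.mem_univ c)]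
  have h1 : (Matrix.updateCol (1 : Matrix (Fin n) (Fin n) ℝ) c w) i c * v c = w i * v c := by
    rw [Matrix.updateCol_self]
  have h2 : ∑ k ∈ Finset.univ.erase c,
      (Matrix.updateCol (1 : Matrix (Fin n) (Fin n) ℝ) c w) i k * v k
        = if i = c then 0 else v i := by
    have h3 : ∀ k ∈ Finset.univ.erase c,
        (Matrix.updateCol (1 : Matrix (Fin n) (Fin n) ℝ) c w) i k * v k
          = if i = k then v k else 0 := by
      intro k hk
      rw [Matrix.updateCol_ne (Finset.ne_of_mem_erase hk), Matrix.one_apply]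
      split_ifs <;> simp
    rw [Finset.sum_congr rfl h3]
    by_cases hic : i = c
    · rw [if_pos hic]
      refine Finset.sum_eq_zero fun k hk => ?_
      rw [if_neg]
      rintro rfl
      exact (Finset.ne_of_mem_erase hk) hic
    · rw [if_neg hic, Finset.sum_ite_eq]
      rw [if_pos (Finset.mem_erase.mpr ⟨hic, Finset.mem_univ i⟩)]
  rw [h1, h2, add_comm]

/-- Lattice bookkeeping: every vector `m + j w` (`m` integral, `j` an integer,
`w = (1/(2n))(1,…,1)`) is `B z` with `z` integral, `B` the identity with the fixed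
column `c` replaced by `w`. -/
theorem exists_int_mulVec_eq {n : ℕ} (hn : 0 < n) (c : Fin n) (m : Fin n → ℤ) (j : ℤ) :
    ∃ z : Fin n → ℤ,
      (Matrix.updateCol (1 : Matrix (Fin n) (Fin n) ℝ) c
          (fun _ => 1 / (2 * (n : ℝ)))).mulVec (fun i => (z i : ℝ))
        = fun i => (m i : ℝ) + (j : ℝ) * (1 / (2 * (n : ℝ))) := by
  have hn' : (n : ℝ) ≠ 0 := Nat.cast_ne_zero.mpr hn.ne'
  refine ⟨fun i => if i = c then j + 2 * (n : ℤ) * m c else m i - m c, ?_⟩
  funext i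
  rw [updateCol_one_mulVec]
  by_cases hic : i = c
  · subst hic
    simp only [if_true]
    push_cast
    field_simp
    ring
  · simp only [if_neg hic, if_true]
    push_cast
    field_simp
    ring

end Vale.Agent.H76.P230Side
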