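import Mathlib

/-!
# Bang's plank theorem (chord form)

Bang's lemma on sign combinations, and the plank theorem in the following form: if a convex set
`S` of a real inner product space is covered by finitely many planks `|⟪z, ν i⟫ - c i| ≤ h i`
with unit normals `ν i`, and `S` contains, for each `i`, a chord `x i - y i = w • ν i` of length
`w` in the direction of the normal, then `w ≤ ∑ i, 2 * h i`.
-/

open Finset

namespace Vale.Agent.H76

variable {V : Type*} [NormedAddCommGroup V] [InnerProductSpace ℝ V]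
variable {ι : Type*} [Fintype ι] [DecidableEq ι]

/-- The sign `±1` coded by a Boolean. -/
def sgn (b : Bool) : ℝ := if b then 1 else -1

theorem sgn_mul_self (b : Bool) : sgn b * sgn b = 1 := by cases b <;> simp [sgn]

theorem sgn_not (b : Bool) : sgn (!b) = -sgn b := by cases b <;> simp [sgn]

theorem sgn_mul_le_abs (b : Bool) (t : ℝ) : sgn b * t ≤ |t| := by
  cases b
  · simp only [sgn, Bool.false_eq_true, if_false]
    linarith [neg_abs_le t]
  · simp only [sgn, if_true]
    linarith [le_abs_self t]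

/-- The point `∑ j, ± h j • ν j` for the sign pattern `σ`. -/
noncomputable def signPt (h : ι → ℝ) (ν : ι → V) (σ : ι → Bool) : V :=
  ∑ j, (sgn (σ j) * h j) • ν j

theorem sum_update_flip {M : Type*} [AddCommGroup M] (F : ι → Bool → M) (σ : ι → Bool) (i : ι) :
    ∑ j, F j (Function.update σ i (!σ i) j) = ∑ j, F j (σ j) - F i (σ i) + F i (!σ i) := by
  rw [← Finset.add_sum_erase univ _ (mem_univ i),
    ← Finset.add_sum_erase univ (fun j => F j (σ j)) (mem_univ i)]
  simp only [Function.update_self]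
  have : ∑ j ∈ univ.erase i, F j (Function.update σ i (!σ i) j) =
      ∑ j ∈ univ.erase i, F j (σ j) := by
    apply Finset.sum_congr rfl
    intro j hj
    rw [Function.update_of_ne (Finset.ne_of_mem_erase hj)]
  rw [this]
  abel

theorem signPt_update (h : ι → ℝ) (ν : ι → V) (σ : ι → Bool) (i : ι) :
    signPt h ν (Function.update σ i (!σ i)) = signPt h ν σ - (2 * sgn (σ i) * h i) • ν i := by
  unfold signPt
  rw [sum_update_flip (fun j b => (sgn b * h j) • ν j) σ i, sgn_not]
  module

/-- **Bang's lemma.** For planks with unit normals `ν i`, centres `c i` and half-widths `h i`,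
some sign combination `p + ∑ ± h j • ν j` lies in the interior of no plank. -/
theorem bang_lemma (h : ι → ℝ) (ν : ι → V) (hν : ∀ i, ‖ν i‖ = 1) (c : ι → ℝ)
    (p : V) : ∃ σ : ι → Bool, ∀ i, h i ≤ |inner ℝ (p + signPt h ν σ) (ν i) - c i| ∨ h i ≤ 0 := by
  set G : (ι → Bool) → ℝ := fun σ =>
    ‖signPt h ν σ‖ ^ 2 + ∑ j, sgn (σ j) * (2 * h j * (inner ℝ p (ν j) - c j)) with hG
  obtain ⟨σ, -, hmax⟩ := Finset.exists_max_image (univ : Finset (ι → Bool)) G
    ⟨fun _ => true, mem_univ _⟩
  refine ⟨σ, fun i => ?_⟩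
  by_cases hi : h i ≤ 0
  · exact Or.inr hi
  left
  push Not at hi
  have h1 := hmax (Function.update σ i (!σ i)) (mem_univ _)
  simp only [hG] at h1
  rw [signPt_update, sum_update_flip
    (fun j b => sgn b * (2 * h j * (inner ℝ p (ν j) - c j))) σ i, sgn_not] at h1
  set y := signPt h ν σ with hy
  set s := sgn (σ i) with hs
  have hss : s * s = 1 := sgn_mul_self _
  have h2 : ‖y - (2 * s * h i) • ν i‖ ^ 2 =
      ‖y‖ ^ 2 - 4 * s * h i * inner ℝ y (ν i) + 4 * h i ^ 2 := by
    rw [norm_sub_sq_real, norm_smul, inner_smul_right, hν i]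
    have : ‖2 * s * h i‖ ^ 2 = 4 * h i ^ 2 := by
      rw [Real.norm_eq_abs, sq_abs]
      have : (2 * s * h i) ^ 2 = 4 * (s * s) * h i ^ 2 := by ring
      rw [this, hss]
      ring
    rw [mul_one, this]
    ring
  rw [h2] at h1
  have h3 : h i ^ 2 ≤ h i * (s * (inner ℝ y (ν i) + (inner ℝ p (ν i) - c i))) := by
    nlinarith
  have h4 : h i ≤ s * (inner ℝ y (ν i) + (inner ℝ p (ν i) - c i)) := by
    have : h i * h i ≤ h i * (s * (inner ℝ y (ν i) + (inner ℝ p (ν i) - c i))) := by
      rw [← sq]
      exact h3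
    exact le_of_mul_le_mul_left this hi
  have h5 : inner ℝ (p + y) (ν i) - c i = inner ℝ y (ν i) + (inner ℝ p (ν i) - c i) := by
    rw [inner_add_left]
    ring
  rw [h5]
  exact h4.trans (sgn_mul_le_abs _ _)

/-- If a convex set contains a chord `x i - y i = w • ν i` for each `i` and `∑ 2 h i ≤ w`, then
all sign combinations around a suitable centre lie in the set. -/
theorem exists_center {S : Set V} (hS : Convex ℝ S) {q : V} (hq : q ∈ S) {w : ℝ} (hw : 0 < w)
    (h : ι → ℝ) (hh : ∀ i, 0 ≤ h i) (ν : ι → V) (x y : ι → V) (hx : ∀ i, x i ∈ S)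
    (hy : ∀ i, y i ∈ S) (hxy : ∀ i, x i - y i = w • ν i) (hsum : ∑ i, 2 * h i ≤ w) :
    ∃ p : V, ∀ σ : ι → Bool, p + signPt h ν σ ∈ S := by
  set T : ℝ := ∑ i, 2 * h i / w with hT
  have hT1 : T ≤ 1 := by
    rw [hT, ← Finset.sum_div, div_le_one hw]
    exact hsum
  refine ⟨(1 - T) • q + ∑ j, (h j / w) • (x j + y j), fun σ => ?_⟩
  -- the point is a convex combination of `q` and the chord endpoints
  have hν : ∀ j, ν j = (1 / w) • (x j - y j) := by
    intro j
    rw [hxy j, smul_smul, one_div, inv_mul_cancel₀ hw.ne', one_smul]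
  have key : (1 - T) • q + ∑ j, (h j / w) • (x j + y j) + signPt h ν σ =
      ∑ o : Option ι, (Option.elim o (1 - T) fun j => 2 * h j / w) •
        (Option.elim o q fun j => if σ j then x j else y j) := by
    rw [Fintype.sum_option]
    simp only [Option.elim_none, Option.elim_some]
    rw [add_assoc]
    congr 1
    unfold signPt
    rw [← Finset.sum_add_distrib]
    apply Finset.sum_congr rfl
    intro j _
    rw [hν j]
    cases σ j
    · simp only [sgn, Bool.false_eq_true, if_false]
      module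
    · simp only [sgn, if_true]
      module
  rw [key]
  apply hS.sum_mem
  · intro o _
    cases o with
    | none => simpa using hT1
    | some j =>
      simp only [Option.elim_some]
      exact div_nonneg (mul_nonneg zero_le_two (hh j)) hw.le
  · rw [Fintype.sum_option]
    simp only [Option.elim_none, Option.elim_some]
    rw [← hT]
    ring
  · intro o _
    cases o with
    | none => simpa using hq
    | some j =>
      simp only [Option.elim_some]
      cases σ j
      · simpa using hy j
      · simpa using hx j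

/-- **Bang's plank theorem, chord form.** -/
theorem plank_chord {S : Set V} (hS : Convex ℝ S) (hne : S.Nonempty) {w : ℝ} (hw : 0 < w)
    (ν : ι → V) (hν : ∀ i, ‖ν i‖ = 1) (c h : ι → ℝ) (hh : ∀ i, 0 ≤ h i)
    (x y : ι → V) (hx : ∀ i, x i ∈ S) (hy : ∀ i, y i ∈ S) (hxy : ∀ i, x i - y i = w • ν i)
    (hcov : ∀ z ∈ S, ∃ i, |inner ℝ z (ν i) - c i| ≤ h i) : w ≤ ∑ i, 2 * h i := by
  by_contra hcon
  push Not at hcon
  obtain ⟨q, hq⟩ := hne
  set n : ℝ := (Fintype.card ι : ℝ) with hn
  have hn0 : 0 ≤ n := Nat.cast_nonneg _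
  set δ : ℝ := (w - ∑ i, 2 * h i) / (2 * (n + 1)) with hδ
  have hδpos : 0 < δ := div_pos (by linarith) (by linarith)
  have hsum : ∑ i, 2 * (h i + δ) ≤ w := by
    have h1 : ∑ i, 2 * (h i + δ) = ∑ i, 2 * h i + 2 * δ * n := by
      simp only [mul_add, Finset.sum_add_distrib, Finset.sum_const, Finset.card_univ,
        nsmul_eq_mul, hn]
      ring
    rw [h1]
    have h2 : 2 * δ * n = (w - ∑ i, 2 * h i) * (n / (n + 1)) := by
      rw [hδ]
      field_simp
    have h3 : n / (n + 1) ≤ 1 := by
      rw [div_le_one (by linarith)]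
      linarith
    have h4 : (w - ∑ i, 2 * h i) * (n / (n + 1)) ≤ (w - ∑ i, 2 * h i) * 1 :=
      mul_le_mul_of_nonneg_left h3 (by linarith)
    linarith
  obtain ⟨p, hp⟩ := exists_center hS hq hw (fun i => h i + δ)
    (fun i => by linarith [hh i]) ν x y hx hy hxy hsum
  obtain ⟨σ, hσ⟩ := bang_lemma (fun i => h i + δ) ν hν c p
  obtain ⟨i, hi⟩ := hcov _ (hp σ)
  rcases hσ i with h1 | h1
  · linarith
  · linarith [hh i]

end Vale.Agent.H76
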