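import Vale.Agent.H76.Transfer

/-!
# Two cylinders covering a convex body: the statement in plain Mathlib terms
-/

open MeasureTheory Set Module
open scoped ENNReal

namespace Vale.Agent.H76

theorem phi_le_half {t : ℝ} (ht : 0 ≤ t) : phi t ≤ 3 / 2 * t + 1 / 8 := by
  obtain ⟨x, hx0, hx⟩ : ∃ x : ℝ, 0 ≤ x ∧ x ^ 2 = t := ⟨√t, Real.sqrt_nonneg _, Real.sq_sqrt ht⟩
  have hs : √t = x := by rw [← hx, Real.sqrt_sq hx0]
  rw [phi, hs, ← hx]
  nlinarith [mul_nonneg (sq_nonneg (x - 1 / 2)) (by positivity : (0 : ℝ) ≤ 2 * x + 1 / 2)]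

theorem two_cylinders_raw
    (K : Set (EuclideanSpace ℝ (Fin 3)))
    (hKconv : Convex ℝ K) (hKcomp : IsCompact K) (hKint : (interior K).Nonempty)
    (u₁ u₂ : EuclideanSpace ℝ (Fin 3)) (hu₁ : ‖u₁‖ = 1) (hu₂ : ‖u₂‖ = 1)
    (B₁ : Set ↥(Submodule.span ℝ {u₁})ᗮ) (B₂ : Set ↥(Submodule.span ℝ {u₂})ᗮ)
    (hcov : K ⊆ ((Submodule.span ℝ {u₁})ᗮ.orthogonalProjectionOnto ⁻¹' B₁) ∪
      ((Submodule.span ℝ {u₂})ᗮ.orthogonalProjectionOnto ⁻¹' B₂)) :
    (1 / 2 : ℝ≥0∞) ≤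
        volume B₁ / volume ((Submodule.span ℝ {u₁})ᗮ.orthogonalProjectionOnto '' K) +
        volume B₂ / volume ((Submodule.span ℝ {u₂})ᗮ.orthogonalProjectionOnto '' K) ∧
      ∀ A : ℝ≥0∞, (∀ u : EuclideanSpace ℝ (Fin 3), ‖u‖ = 1 →
          A ≤ volume ((Submodule.span ℝ {u})ᗮ.orthogonalProjectionOnto '' K)) →
        A / 2 ≤ volume B₁ + volume B₂ := by
  have hE : finrank ℝ (EuclideanSpace ℝ (Fin 3)) = 3 := by simp
  -- package the two cylinders as a family indexed by `Fin 2`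
  set u : Fin 2 → EuclideanSpace ℝ (Fin 3) := ![u₁, u₂] with hu
  have hun : ∀ i, ‖u i‖ = 1 := by
    intro i
    fin_cases i
    · exact hu₁
    · exact hu₂
  let B : ∀ i : Fin 2, Set ↥(Submodule.span ℝ {u i})ᗮ := fun i =>
    Fin.cases (motive := fun i => Set ↥(Submodule.span ℝ {u i})ᗮ) B₁
      (fun j => Fin.cases (motive := fun j => Set ↥(Submodule.span ℝ {u j.succ})ᗮ) B₂
        (fun k => k.elim0) j) i
  have hcov' : K ⊆ ⋃ i, (Submodule.span ℝ {u i})ᗮ.orthogonalProjectionOnto ⁻¹' B i := by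
    intro x hx
    rcases hcov hx with h | h
    · exact mem_iUnion.2 ⟨0, h⟩
    · exact mem_iUnion.2 ⟨1, h⟩
  obtain ⟨t, ht0, htle, hsum⟩ := covering_sum hE hKcomp hKconv hKint u hun B hcov'
  rw [Fin.sum_univ_two] at hsum
  have h1 : ENNReal.ofReal (t 0) ≤
      volume B₁ / volume ((Submodule.span ℝ {u₁})ᗮ.orthogonalProjectionOnto '' K) := htle 0
  have h2 : ENNReal.ofReal (t 1) ≤
      volume B₂ / volume ((Submodule.span ℝ {u₂})ᗮ.orthogonalProjectionOnto '' K) := htle 1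
  -- the real inequality
  have hreal : 1 / 2 ≤ t 0 + t 1 := by
    have e0 := phi_le_half (ht0 0)
    have e1 := phi_le_half (ht0 1)
    have h3 : (1 : ℝ≥0∞) ≤ ENNReal.ofReal (3 / 2 * t 0 + 1 / 8 + (3 / 2 * t 1 + 1 / 8)) := by
      rw [ENNReal.ofReal_add (by linarith [ht0 0]) (by linarith [ht0 1])]
      exact hsum.trans (add_le_add (ENNReal.ofReal_le_ofReal e0) (ENNReal.ofReal_le_ofReal e1))
    have h4 : (1 : ℝ) ≤ 3 / 2 * t 0 + 1 / 8 + (3 / 2 * t 1 + 1 / 8) := by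
      rw [← ENNReal.ofReal_one] at h3
      exact (ENNReal.ofReal_le_ofReal_iff (by linarith [ht0 0, ht0 1])).1 h3
    linarith
  have hmain : (1 / 2 : ℝ≥0∞) ≤
      volume B₁ / volume ((Submodule.span ℝ {u₁})ᗮ.orthogonalProjectionOnto '' K) +
      volume B₂ / volume ((Submodule.span ℝ {u₂})ᗮ.orthogonalProjectionOnto '' K) := by
    have h5 : (1 / 2 : ℝ≥0∞) = ENNReal.ofReal (1 / 2) := by
      rw [ENNReal.ofReal_div_of_pos (by norm_num), ENNReal.ofReal_one, ENNReal.ofReal_ofNat]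
    rw [h5]
    calc ENNReal.ofReal (1 / 2) ≤ ENNReal.ofReal (t 0 + t 1) := ENNReal.ofReal_le_ofReal hreal
      _ = ENNReal.ofReal (t 0) + ENNReal.ofReal (t 1) := ENNReal.ofReal_add (ht0 0) (ht0 1)
      _ ≤ _ := add_le_add h1 h2
  refine ⟨hmain, ?_⟩
  intro A hA
  have hA1 := hA u₁ hu₁
  have hA2 := hA u₂ hu₂
  calc A / 2 = A * (1 / 2) := by rw [mul_one_div]
    _ ≤ A * (volume B₁ / volume ((Submodule.span ℝ {u₁})ᗮ.orthogonalProjectionOnto '' K) +
          volume B₂ / volume ((Submodule.span ℝ {u₂})ᗮ.orthogonalProjectionOnto '' K)) :=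
        mul_le_mul' le_rfl hmain
    _ = A * (volume B₁ / volume ((Submodule.span ℝ {u₁})ᗮ.orthogonalProjectionOnto '' K)) +
          A * (volume B₂ / volume ((Submodule.span ℝ {u₂})ᗮ.orthogonalProjectionOnto '' K)) :=
        mul_add _ _ _
    _ ≤ volume ((Submodule.span ℝ {u₁})ᗮ.orthogonalProjectionOnto '' K) *
          (volume B₁ / volume ((Submodule.span ℝ {u₁})ᗮ.orthogonalProjectionOnto '' K)) +
        volume ((Submodule.span ℝ {u₂})ᗮ.orthogonalProjectionOnto '' K) *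
          (volume B₂ / volume ((Submodule.span ℝ {u₂})ᗮ.orthogonalProjectionOnto '' K)) :=
        add_le_add (mul_le_mul' hA1 le_rfl) (mul_le_mul' hA2 le_rfl)
    _ ≤ volume B₁ + volume B₂ := add_le_add ENNReal.mul_div_le ENNReal.mul_div_le

end Vale.Agent.H76
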